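import Vale.Agent.P070.Uniq

/-! Construction of the ambient algebra in which the germs become unitaries. -/

open scoped InnerProductSpace Topology BoundedContinuousFunction ComplexOrder
open Complex Filter

namespace Vale.Agent.P070

universe u

variable {B : Type u} [CStarAlgebra B]
variable {H : Type*} [NormedAddCommGroup H] [InnerProductSpace ℂ H] [CompleteSpace H]

lemma exists_ultra (π : B →⋆ₐ[ℂ] (H →L[ℂ] H)) (δ : H) (x : ℕ →ᵇ B) :
    ∃ l, Tendsto (fun j => ⟪δ, π (x j) δ⟫_ℂ) (hyperfilter ℕ) (𝓝 l) := by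
  obtain ⟨l, -, hl⟩ := (isCompact_closedBall (0 : ℂ) (‖δ‖ * (‖x‖ * ‖δ‖))).ultrafilter_le_nhds
    ((hyperfilter ℕ).map fun j => ⟪δ, π (x j) δ⟫_ℂ) (by
      rw [Ultrafilter.coe_map, le_principal_iff, mem_map]
      refine Eventually.of_forall fun j => ?_
      simp only [Metric.mem_closedBall, dist_zero_right]
      refine (norm_inner_le_norm _ _).trans ?_
      gcongr
      refine (norm_rep_le π _ _).trans ?_
      gcongr
      exact x.norm_coe_le_norm j)
  exact ⟨l, hl⟩

/-- A representation of the bounded sequences that kills the eventually vanishing ones. -/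
lemma exists_corona (π : B →⋆ₐ[ℂ] (H →L[ℂ] H)) {δ : H} (hδ : ‖δ‖ = 1) :
    ∃ (D : Type u) (_ : CStarAlgebra D) (_ : Nontrivial D) (Φ : (ℕ →ᵇ B) →⋆ₐ[ℂ] D),
      ∀ x : ℕ →ᵇ B, (∀ᶠ j in atTop, x j = 0) → Φ x = 0 := by
  choose l hl using exists_ultra π δ
  let f0 : (ℕ →ᵇ B) →ₗ[ℂ] ℂ :=
    { toFun := l
      map_add' := fun x y => tendsto_nhds_unique (hl (x + y)) (by
        simpa [inner_add_right] using (hl x).add (hl y))
      map_smul' := fun c x => tendsto_nhds_unique (hl (c • x)) (by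
        simpa [inner_smul_right] using (hl x).const_mul c) }
  let _ := CStarAlgebra.spectralOrder (ℕ →ᵇ B)
  have := CStarAlgebra.spectralOrderedRing (ℕ →ᵇ B)
  let f : (ℕ →ᵇ B) →ₚ[ℂ] ℂ := PositiveLinearMap.mk₀ f0 fun x hx => by
    obtain ⟨y, rfl⟩ := CStarAlgebra.nonneg_iff_eq_star_mul_self.1 hx
    refine ge_of_tendsto' (hl (star y * y)) fun j => ?_
    have : (star y * y) j = star (y j) * y j := rfl
    rw [this, rep_mul, ← inner_rep_left, inner_self_eq_norm_sq_to_K]
    positivity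
  have hf : ∀ x, f x = l x := fun _ => rfl
  have h1 : ‖((f.toPreGNS 1 : f.PreGNS) : f.GNS)‖ = 1 := by
    rw [UniformSpace.Completion.norm_coe, f.preGNS_norm_def]
    have : l 1 = 1 := tendsto_nhds_unique (hl 1) (by
      simp [inner_self_eq_norm_sq_to_K, hδ])
    simp [hf, this]
  have : Nontrivial f.GNS := ⟨⟨((f.toPreGNS 1 : f.PreGNS) : f.GNS), 0, fun h => by
    rw [h, norm_zero] at h1; exact zero_ne_one h1⟩⟩
  refine ⟨f.GNS →L[ℂ] f.GNS, inferInstance, inferInstance, f.gnsStarAlgHom, fun x hx => ?_⟩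
  ext v
  induction v using UniformSpace.Completion.induction_on with
  | hp => exact isClosed_eq (by fun_prop) (by fun_prop)
  | ih y =>
    change f.gnsNonUnitalStarAlgHom x y = 0
    rw [f.gnsNonUnitalStarAlgHom_apply_coe, ← norm_eq_zero, UniformSpace.Completion.norm_coe,
      f.preGNS_norm_def]
    have : l (star (x * f.ofPreGNS y) * (x * f.ofPreGNS y)) = 0 := by
      refine tendsto_nhds_unique (hl _) (tendsto_const_nhds.congr' ?_)
      have hx' : ∀ᶠ j in (hyperfilter ℕ : Filter ℕ), x j = 0 :=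
        hx.filter_mono Nat.hyperfilter_le_atTop
      refine hx'.mono fun j hj => ?_
      simp [hj]
    change √(l (star (x * f.ofPreGNS y) * (x * f.ofPreGNS y))).re = 0
    rw [this]
    simp

lemma not_unlinked_self [Nontrivial B] {S : Sys B} (V : Germ S) : ¬ Unlinked V V := by
  intro h
  obtain ⟨j, hj⟩ := h 1 1 one_pos
  rw [mul_one, V.q_mul_q le_rfl, Germ.q,
    CStarRing.norm_mul_mem_unitary _ (Unitary.star_mem (V.unit j)),
    CStarRing.norm_mem_unitary_mul _ (V.unit j)] at hj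
  have h0 : 0 < ‖S.E (V.n j)‖ := norm_pos_iff.2 (S.map_E_ne_zero (RingHom.id B) _)
  have := CStarRing.norm_star_mul_self (x := S.E (V.n j))
  rw [S.star_E_mul] at this
  nlinarith

lemma exists_family [Nontrivial B] (S : Sys B) : ∃ Ψ : Set (Germ S), S.idGerm ∈ Ψ ∧
    Ψ.Pairwise Unlinked ∧ ∀ V, ∃ W ∈ Ψ, ¬ Unlinked V W := by
  obtain ⟨Ψ, h1, h2⟩ := zorn_subset_nonempty {Ψ : Set (Germ S) | Ψ.Pairwise Unlinked}
    (fun c hc hch _ => ⟨⋃₀ c, (Set.pairwise_sUnion hch.directedOn).2 fun a ha => hc ha,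
      fun s hs => Set.subset_sUnion_of_mem hs⟩) {S.idGerm} (Set.pairwise_singleton _ _)
  refine ⟨Ψ, h1 rfl, h2.prop, fun V => ?_⟩
  by_contra! h
  have : (insert V Ψ).Pairwise Unlinked :=
    h2.prop.insert fun W hW _ => ⟨h W hW, (h W hW).symm⟩
  exact not_unlinked_self V (h V (h2.le_of_ge this (Set.subset_insert _ _) (Set.mem_insert _ _)))

/-- Constant sequences. -/
noncomputable def constHom (B : Type u) [CStarAlgebra B] : B →⋆ₐ[ℂ] (ℕ →ᵇ B) where
  toFun b := BoundedContinuousFunction.const ℕ b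
  map_one' := rfl
  map_mul' _ _ := rfl
  map_zero' := rfl
  map_add' _ _ := rfl
  commutes' c := by ext; simp [Algebra.algebraMap_eq_smul_one]
  map_star' _ := rfl

lemma exists_amb [Nontrivial B] (S : Sys B) (π : B →⋆ₐ[ℂ] (H →L[ℂ] H)) {δ : H} (hδ : ‖δ‖ = 1) :
    ∃ (A : Type u) (_ : CStarAlgebra A), Nontrivial A ∧ Nonempty (Amb S A) := by
  obtain ⟨D, _, _, Φ, hΦ⟩ := exists_corona π hδ
  obtain ⟨Ψ, h1, h2, h3⟩ := exists_family S
  let w : Germ S → ℕ →ᵇ B := fun W => BoundedContinuousFunction.ofNormedAddCommGroupDiscrete W.W 1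
    fun j => (CStarRing.norm_of_mem_unitary (W.unit j)).le
  have hw : ∀ W j, w W j = W.W j := fun _ _ => rfl
  have hwu : ∀ W, w W ∈ unitary (ℕ →ᵇ B) := fun W =>
    ⟨by ext j; exact (W.unit j).1, by ext j; exact (W.unit j).2⟩
  let ι0 := Φ.comp (constHom B)
  let A := (StarAlgebra.adjoin ℂ (Set.range ι0 ∪ Set.range fun W : Ψ => Φ (w W))).topologicalClosure
  have hA : IsClosed (A : Set D) := StarSubalgebra.isClosed_topologicalClosure _
  have m1 : ∀ b, ι0 b ∈ A := fun b => StarSubalgebra.le_topologicalClosure _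
    (StarAlgebra.subset_adjoin _ _ (Or.inl ⟨b, rfl⟩))
  have m2 : ∀ W : Ψ, Φ (w W) ∈ A := fun W => StarSubalgebra.le_topologicalClosure _
    (StarAlgebra.subset_adjoin _ _ (Or.inr ⟨W, rfl⟩))
  refine ⟨A, inferInstance, inferInstance, ⟨{
    ι := ι0.codRestrict A m1
    Ψ := Ψ
    u := fun W => ⟨Φ (w W), m2 W⟩
    id_mem := h1
    pair := h2
    maxl := h3
    u_unit := fun W => ⟨Subtype.ext ?_, Subtype.ext ?_⟩
    u_E := fun W j => Subtype.ext ?_
    u_id := Subtype.ext ?_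
    gen := fun T hT t1 t2 => ?_ }⟩⟩
  · change star (Φ (w W)) * Φ (w W) = 1
    rw [← map_star, ← map_mul, (hwu W).1, map_one]
  · change Φ (w W) * star (Φ (w W)) = 1
    rw [← map_star, ← map_mul, (hwu W).2, map_one]
  · change Φ (w W) * Φ (constHom B (1 - S.E (W.1.n j))) =
      Φ (constHom B (W.1.W j * (1 - S.E (W.1.n j))))
    rw [← map_mul, ← sub_eq_zero, ← map_sub]
    refine hΦ _ (eventually_atTop.2 ⟨j, fun k hk => ?_⟩)
    exact sub_eq_zero.2 (W_stable W.1.mono W.1.step hk)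
  · change Φ (w S.idGerm) = 1
    rw [← map_one Φ]
    rfl
  · have hc : IsClosed ((T.map A.subtype : StarSubalgebra ℂ D) : Set D) :=
      hA.isClosedEmbedding_subtypeVal.isClosedMap _ hT
    have : A ≤ T.map A.subtype := StarSubalgebra.topologicalClosure_minimal
      (StarAlgebra.adjoin_le (by
        rintro _ (⟨b, rfl⟩ | ⟨W, rfl⟩)
        · exact ⟨_, t1 b, rfl⟩
        · exact ⟨_, t2 W, rfl⟩)) hc
    refine eq_top_iff.2 fun a _ => ?_
    obtain ⟨a', ha', e⟩ := this a.2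
    exact (Subtype.ext e : a' = a) ▸ ha'

end Vale.Agent.P070
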