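import Vale.Agent.P070.Sys

/-! The uniformly hyperfinite core generated by a pair of Cuntz isometries. -/

open scoped InnerProductSpace
open Complex

namespace Vale.Agent.P070

universe u

variable {D : Type u} [CStarAlgebra D]

/-- A pair of isometries with orthogonal ranges that sum to one. -/
structure Cuntz (D : Type u) [CStarAlgebra D] where
  t : Bool → D
  star_t_t : ∀ a b, star (t a) * t b = if a = b then 1 else 0
  sum_t : ∑ a, t a * star (t a) = 1

namespace Cuntz

variable (C : Cuntz D)

/-- The finite dimensional stages. -/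
def N : ℕ → StarSubalgebra ℂ D
  | 0 => ⊥
  | k + 1 =>
    { carrier := {x | ∀ a b, star (C.t a) * x * C.t b ∈ N k}
      mul_mem' := fun {x y} hx hy a b => by
        have : star (C.t a) * (x * y) * C.t b =
            ∑ e, (star (C.t a) * x * C.t e) * (star (C.t e) * y * C.t b) := by
          calc _ = star (C.t a) * x * (∑ e, C.t e * star (C.t e)) * y * C.t b := by
                rw [C.sum_t]; noncomm_ring
            _ = _ := by simp only [Finset.mul_sum, Finset.sum_mul, mul_assoc]
        rw [this]
        exact sum_mem fun e _ => mul_mem (hx a e) (hy e b)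
      add_mem' := fun {x y} hx hy a b => by
        rw [mul_add, add_mul]
        exact add_mem (hx a b) (hy a b)
      algebraMap_mem' := fun c a b => by
        rw [Algebra.algebraMap_eq_smul_one, mul_smul_comm, mul_one, smul_mul_assoc, C.star_t_t]
        refine SMulMemClass.smul_mem c ?_
        split_ifs
        · exact one_mem _
        · exact zero_mem _
      star_mem' := fun {x} hx a b => by
        have := star_mem (hx b a)
        rwa [star_mul, star_mul, star_star, ← mul_assoc] at this }

lemma mem_N_succ {k : ℕ} {x : D} : x ∈ C.N (k + 1) ↔ ∀ a b, star (C.t a) * x * C.t b ∈ C.N k :=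
  Iff.rfl

lemma N_mono : Monotone C.N := by
  refine monotone_nat_of_le_succ fun k => ?_
  induction k with
  | zero => exact bot_le
  | succ k ih => exact fun x hx a b => ih (hx a b)

lemma conj_mem {k : ℕ} {x : D} (hx : x ∈ C.N k) (a b : Bool) :
    C.t a * x * star (C.t b) ∈ C.N (k + 1) := by
  intro a' b'
  have : star (C.t a') * (C.t a * x * star (C.t b)) * C.t b' =
      (star (C.t a') * C.t a) * x * (star (C.t b) * C.t b') := by noncomm_ring
  rw [this, C.star_t_t, C.star_t_t]
  split_ifs <;> simp [hx]

/-- Words in the isometries. -/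
def w : (d : ℕ) → Idx d → D
  | 0, _ => 1
  | d + 1, μ => C.t (μ 0) * w d (Fin.tail μ)

lemma star_w_w (d : ℕ) (μ ν : Idx d) : star (C.w d μ) * C.w d ν = if μ = ν then 1 else 0 := by
  induction d with
  | zero => simp [w, Subsingleton.elim μ ν]
  | succ d ih =>
    have : star (C.w (d + 1) μ) * C.w (d + 1) ν =
        star (C.w d (Fin.tail μ)) * (star (C.t (μ 0)) * C.t (ν 0)) * C.w d (Fin.tail ν) := by
      simp only [w, star_mul, mul_assoc]
    rw [this, C.star_t_t]
    by_cases h : μ 0 = ν 0
    · rw [if_pos h, mul_one, ih]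
      refine if_congr ⟨fun h' => ?_, fun h' => by rw [h']⟩ rfl rfl
      rw [← Fin.cons_self_tail μ, ← Fin.cons_self_tail ν, h, h']
    · rw [if_neg h, if_neg (fun h' => h (by rw [h']))]
      simp

lemma sum_w (d : ℕ) : ∑ μ, C.w d μ * star (C.w d μ) = 1 := by
  induction d with
  | zero => simp [w]
  | succ d ih =>
    rw [← (Fin.consEquiv fun _ : Fin (d + 1) => Bool).sum_comp, Fintype.sum_prod_type, ← C.sum_t]
    refine Finset.sum_congr rfl fun a _ => ?_
    rw [show C.t a * star (C.t a) = C.t a * (∑ μ, C.w d μ * star (C.w d μ)) * star (C.t a) by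
      rw [ih, mul_one]]
    simp [w, Finset.mul_sum, Finset.sum_mul, mul_assoc, Fin.consEquiv]

lemma w_zero (d : ℕ) : C.w d (fun _ => false) = C.t false ^ d := by
  induction d with
  | zero => simp [w]
  | succ d ih => rw [pow_succ', ← ih]; rfl

lemma star_pow_pow (j : ℕ) : star (C.t false ^ j) * C.t false ^ j = 1 := by
  rw [← C.w_zero, C.star_w_w, if_pos rfl]

lemma w_w_mem (d : ℕ) (μ ν : Idx d) : C.w d μ * star (C.w d ν) ∈ C.N d := by
  induction d with
  | zero => simp [w]
  | succ d ih =>
    have := C.conj_mem (ih (Fin.tail μ) (Fin.tail ν)) (μ 0) (ν 0)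
    simpa only [w, star_mul, mul_assoc] using this

lemma pow_conj_mem {k : ℕ} {x : D} (hx : x ∈ C.N k) (j : ℕ) :
    C.t false ^ j * x * star (C.t false ^ j) ∈ C.N (k + j) := by
  induction j with
  | zero => simpa using hx
  | succ j ih =>
    have := C.conj_mem ih false false
    simpa only [pow_succ', star_mul, mul_assoc, add_assoc] using this

lemma pow_conj_mem' {k : ℕ} (j : ℕ) {x : D} (hx : x ∈ C.N (k + j)) :
    star (C.t false ^ j) * x * C.t false ^ j ∈ C.N k := by
  induction j generalizing x with
  | zero => simpa using hx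
  | succ j ih =>
    have := ih (hx false false)
    simpa only [pow_succ', star_mul, mul_assoc] using this

lemma w_conj (d : ℕ) {x : D} (hx : x ∈ C.N d) (μ ν : Idx d) :
    ∃ c : ℂ, star (C.w d μ) * x * C.w d ν = c • 1 := by
  induction d generalizing x with
  | zero =>
    obtain ⟨c, rfl⟩ := StarSubalgebra.mem_bot.1 hx
    exact ⟨c, by simp [w, Algebra.algebraMap_eq_smul_one]⟩
  | succ d ih =>
    obtain ⟨c, hc⟩ := ih (hx (μ 0) (ν 0)) (Fin.tail μ) (Fin.tail ν)
    exact ⟨c, by simpa only [w, star_mul, mul_assoc] using hc⟩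

/-- The core. -/
noncomputable def core : StarSubalgebra ℂ D := (⨆ k, C.N k).topologicalClosure

instance : IsClosed (C.core : Set D) := StarSubalgebra.isClosed_topologicalClosure _

lemma mem_core {k : ℕ} {x : D} (hx : x ∈ C.N k) : x ∈ C.core :=
  StarSubalgebra.le_topologicalClosure _ (le_iSup C.N k hx)

lemma s_mem (j d : ℕ) (μ : Idx d) :
    C.t false ^ j * C.w d μ * star (C.t false ^ (j + d)) ∈ C.core := by
  have := C.pow_conj_mem (C.w_w_mem d μ fun _ => false) j
  rw [C.w_zero] at this
  refine C.mem_core (k := d + j) ?_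
  simpa only [pow_add, star_mul, mul_assoc] using this

lemma E_mem (j : ℕ) : C.t false ^ j * star (C.t false ^ j) ∈ C.core := by
  have := C.pow_conj_mem (one_mem (C.N 0)) j
  rw [mul_one] at this
  exact C.mem_core this

lemma s_star_s (j d : ℕ) (μ ν : Idx d) :
    C.t false ^ j * C.w d μ * star (C.t false ^ (j + d)) *
      star (C.t false ^ j * C.w d ν * star (C.t false ^ (j + d))) =
      C.t false ^ j * (C.w d μ * star (C.w d ν)) * star (C.t false ^ j) := by
  calc _ = C.t false ^ j * C.w d μ * (star (C.t false ^ (j + d)) * C.t false ^ (j + d)) *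
        star (C.w d ν) * star (C.t false ^ j) := by
        simp only [star_mul, star_star, mul_assoc]
    _ = _ := by rw [C.star_pow_pow]; noncomm_ring

/-- The system of matrix units in the core. -/
noncomputable def sys : Sys C.core where
  E j := ⟨_, C.E_mem j⟩
  s j d μ := ⟨_, C.s_mem j d μ⟩
  E_zero := Subtype.ext (by simp)
  star_s_s j d μ ν := Subtype.ext (by
    have : star (C.t false ^ j * C.w d μ * star (C.t false ^ (j + d))) *
        (C.t false ^ j * C.w d ν * star (C.t false ^ (j + d))) =
        C.t false ^ (j + d) * (star (C.w d μ) * (star (C.t false ^ j) * C.t false ^ j) * C.w d ν) *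
          star (C.t false ^ (j + d)) := by simp only [star_mul, star_star, mul_assoc]
    change star (C.t false ^ j * C.w d μ * star (C.t false ^ (j + d))) *
        (C.t false ^ j * C.w d ν * star (C.t false ^ (j + d))) = _
    rw [this, C.star_pow_pow, mul_one, C.star_w_w]
    split_ifs <;> simp)
  sum_s j d := Subtype.ext (by
    rw [AddSubmonoidClass.coe_finsetSum]
    change ∑ μ, C.t false ^ j * C.w d μ * star (C.t false ^ (j + d)) *
      star (C.t false ^ j * C.w d μ * star (C.t false ^ (j + d))) = _
    simp only [C.s_star_s]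
    rw [← Finset.sum_mul, ← Finset.mul_sum, C.sum_w, mul_one])
  s_z j d := Subtype.ext (by simp only [C.w_zero, pow_add])
  dense b j ε hε := by
    obtain ⟨x, hx, hd⟩ := Metric.mem_closure_iff.1 b.2 ε hε
    have hx' : x ∈ ⋃ k, (C.N k : Set D) := by
      rw [← StarSubalgebra.coe_iSup_of_directed C.N_mono.directed_le]
      exact hx
    obtain ⟨d, hx⟩ := Set.mem_iUnion.1 hx'
    have hx2 := C.pow_conj_mem' j (C.N_mono (Nat.le_add_right d j) hx)
    choose c hc using C.w_conj d hx2
    refine ⟨d, c, ?_⟩
    set e := C.t false ^ j * star (C.t false ^ j) with he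
    have hen : ‖e‖ ≤ 1 := IsStarProjection.norm_le _ ⟨by
      change e * e = e
      rw [he, mul_assoc, ← mul_assoc (star _), C.star_pow_pow, one_mul], by
      change star e = e
      rw [he, star_mul, star_star]⟩
    have k1 : e * x * e = ∑ μ, ∑ ν, c μ ν •
        (C.t false ^ j * (C.w d μ * star (C.w d ν)) * star (C.t false ^ j)) := by
      calc _ = C.t false ^ j * (∑ μ, C.w d μ * star (C.w d μ)) *
            (star (C.t false ^ j) * x * C.t false ^ j) * (∑ μ, C.w d μ * star (C.w d μ)) *
              star (C.t false ^ j) := by rw [C.sum_w, he]; noncomm_ring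
        _ = ∑ μ, ∑ ν, C.t false ^ j * C.w d μ * (star (C.w d μ) *
            (star (C.t false ^ j) * x * C.t false ^ j) * C.w d ν) * star (C.w d ν) *
              star (C.t false ^ j) := by
            simp only [Finset.mul_sum, Finset.sum_mul, mul_assoc]
            exact Finset.sum_comm
        _ = _ := by
            simp only [hc]
            simp only [mul_smul_comm, smul_mul_assoc, mul_one, mul_assoc]
    have hnc : ∀ y : C.core, ‖y‖ = ‖(y : D)‖ := fun _ => rfl
    rw [hnc]
    simp only [AddSubgroupClass.coe_sub, MulMemClass.coe_mul, AddSubmonoidClass.coe_finsetSum,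
      SetLike.val_smul, StarMemClass.coe_star, C.s_star_s]
    rw [← k1, ← sub_mul, ← mul_sub]
    refine lt_of_le_of_lt ?_ (dist_eq_norm (b : D) x ▸ hd)
    refine norm_mul₃_le.trans ?_
    have h0 := norm_nonneg e
    calc _ ≤ 1 * ‖(b : D) - x‖ * 1 := by gcongr
      _ = _ := by ring

end Cuntz

/-- The sequence space. -/
noncomputable abbrev L2 := lp (fun _ : ℕ => ℂ) 2

lemma orthonormal_single : Orthonormal ℂ fun n : ℕ => (lp.single 2 n (1 : ℂ) : L2) := by
  rw [orthonormal_iff_ite]
  intro i j
  rw [lp.inner_single_left]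
  by_cases h : i = j
  · subst h; simp
  · simp [h, lp.single_apply]

lemma exists_cuntz : Nonempty (Cuntz (L2 →L[ℂ] L2)) := by
  let e : ℕ → L2 := fun n => lp.single 2 n (1 : ℂ)
  have he : Orthonormal ℂ e := orthonormal_single
  have hb : ∀ a b m n, Nat.bit a m = Nat.bit b n ↔ a = b ∧ m = n := fun a b m n => by
    cases a <;> cases b <;> simp [Nat.bit] <;> omega
  have ho : ∀ a : Bool, Orthonormal ℂ fun n => e (Nat.bit a n) := fun a =>
    he.comp _ fun m n h => ((hb _ _ _ _).1 h).2
  let t : Bool → L2 →L[ℂ] L2 := fun a => (ho a).orthogonalFamily.linearIsometry.toContinuousLinearMap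
  have ht : ∀ a n, t a (e n) = e (Nat.bit a n) := fun a n => by
    simp [t, e, OrthogonalFamily.linearIsometry_apply_single]
  have hext : ∀ S T : L2 →L[ℂ] L2, (∀ n, S (e n) = T (e n)) → S = T := fun S T h => by
    refine lp.ext_continuousLinearMap (by simp) fun n => ?_
    ext1
    exact h n
  have hext' : ∀ x y : L2, (∀ n, ⟪e n, x⟫_ℂ = ⟪e n, y⟫_ℂ) → x = y := fun x y h => by
    ext n
    simpa [e, lp.inner_single_left] using h n
  have h1 : ∀ a b, star (t a) * t b = if a = b then 1 else 0 := fun a b => by
    refine hext _ _ fun n => hext' _ _ fun m => ?_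
    rw [mul_apply_eq_comp, ContinuousLinearMap.star_eq_adjoint,
      ContinuousLinearMap.adjoint_inner_right, ht, ht, orthonormal_iff_ite.1 he]
    by_cases hab : a = b
    · subst hab
      simp [orthonormal_iff_ite.1 he, hb]
    · simp [hab, hb]
  refine ⟨⟨t, h1, hext _ _ fun n => ?_⟩⟩
  rw [← Nat.bit_bodd_div2 n, ← ht]
  have : (∑ a, t a * star (t a)) * t n.bodd = t n.bodd := by
    simp only [Finset.sum_mul, mul_assoc, h1]
    simp
  exact congrArg (fun S : L2 →L[ℂ] L2 => S (e n.div2)) this

end Vale.Agent.P070
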