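import Mathlib

/-! Definitions for the statement of Naimark's problem. -/

namespace Vale.Agent.P070

universe u v w

/-- A representation is irreducible when it is nonzero and has no closed invariant subspace
other than `0` and the whole space. -/
def IsIrreducibleRep {A : Type w} [NonUnitalCStarAlgebra A] {H : Type u} [NormedAddCommGroup H]
    [InnerProductSpace ℂ H] [CompleteSpace H] (π : A →⋆ₙₐ[ℂ] (H →L[ℂ] H)) : Prop :=
  (∃ a, π a ≠ 0) ∧
    ∀ K : Submodule ℂ H, IsClosed (K : Set H) → (∀ a, ∀ x ∈ K, π a x ∈ K) → K = ⊥ ∨ K = ⊤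

/-- Unitary equivalence of two representations. -/
def UnitarilyEquivalent {A : Type w} [NonUnitalCStarAlgebra A] {H : Type u} [NormedAddCommGroup H]
    [InnerProductSpace ℂ H] [CompleteSpace H] {H' : Type v} [NormedAddCommGroup H']
    [InnerProductSpace ℂ H'] [CompleteSpace H'] (π : A →⋆ₙₐ[ℂ] (H →L[ℂ] H))
    (σ : A →⋆ₙₐ[ℂ] (H' →L[ℂ] H')) : Prop :=
  ∃ U : H ≃ₗᵢ[ℂ] H', ∀ a x, U (π a x) = σ a (U x)

/-- Property (N): the algebra is nonzero and any two irreducible representations are unitarily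
equivalent. -/
def PropertyN (A : Type w) [NonUnitalCStarAlgebra A] : Prop :=
  Nontrivial A ∧
    ∀ (H : Type u) [NormedAddCommGroup H] [InnerProductSpace ℂ H] [CompleteSpace H]
      (H' : Type v) [NormedAddCommGroup H'] [InnerProductSpace ℂ H'] [CompleteSpace H']
      (π : A →⋆ₙₐ[ℂ] (H →L[ℂ] H)) (σ : A →⋆ₙₐ[ℂ] (H' →L[ℂ] H')),
      IsIrreducibleRep π → IsIrreducibleRep σ → UnitarilyEquivalent π σ

/-- The algebra is star-isomorphic to the algebra of compact operators on some Hilbert space. -/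
def IsoToCompacts (A : Type w) [NonUnitalCStarAlgebra A] : Prop :=
  ∃ (H : Type u) (_ : NormedAddCommGroup H) (_ : InnerProductSpace ℂ H) (_ : CompleteSpace H)
    (Φ : A →⋆ₙₐ[ℂ] (H →L[ℂ] H)),
    Function.Injective Φ ∧ Set.range Φ = {T : H →L[ℂ] H | IsCompactOperator T}

end Vale.Agent.P070
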