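import Mathlib

/-! Density and approximate unitary transitivity for irreducible representations. -/

open scoped InnerProductSpace ComplexStarModule
open Complex

namespace Vale.Agent.P070

variable {B : Type*} [CStarAlgebra B]
variable {H : Type*} [NormedAddCommGroup H] [InnerProductSpace ℂ H] [CompleteSpace H]

/-- Topological irreducibility of a unital representation. -/
def Irr (π : B →⋆ₐ[ℂ] (H →L[ℂ] H)) : Prop :=
  ∀ K : Submodule ℂ H, IsClosed (K : Set H) → (∀ b, ∀ x ∈ K, π b x ∈ K) → K = ⊥ ∨ K = ⊤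

lemma inner_rep_left (π : B →⋆ₐ[ℂ] (H →L[ℂ] H)) (b : B) (x y : H) :
    ⟪π b x, y⟫_ℂ = ⟪x, π (star b) y⟫_ℂ := by
  rw [map_star, ContinuousLinearMap.star_eq_adjoint, ContinuousLinearMap.adjoint_inner_right]

lemma inner_rep_right (π : B →⋆ₐ[ℂ] (H →L[ℂ] H)) (b : B) (x y : H) :
    ⟪x, π b y⟫_ℂ = ⟪π (star b) x, y⟫_ℂ := by
  rw [inner_rep_left, star_star]

lemma rep_mul (π : B →⋆ₐ[ℂ] (H →L[ℂ] H)) (a b : B) (x : H) : π (a * b) x = π a (π b x) := by
  rw [map_mul]; rfl

lemma rep_one (π : B →⋆ₐ[ℂ] (H →L[ℂ] H)) (x : H) : π 1 x = x := by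
  rw [map_one]; rfl

lemma norm_rep_le (π : B →⋆ₐ[ℂ] (H →L[ℂ] H)) (b : B) (x : H) : ‖π b x‖ ≤ ‖b‖ * ‖x‖ :=
  ((π b).le_opNorm x).trans
    (mul_le_mul_of_nonneg_right (NonUnitalStarAlgHom.norm_apply_le π b) (norm_nonneg _))

lemma schur_sa {π : B →⋆ₐ[ℂ] (H →L[ℂ] H)} (hπ : Irr π) {T : H →L[ℂ] H} (hT : IsSelfAdjoint T)
    (hc : ∀ b, Commute T (π b)) : ∃ c : ℂ, T = c • (1 : H →L[ℂ] H) := by
  have hsub : ∀ a ∈ spectrum ℝ T, ∀ b ∈ spectrum ℝ T, ¬ a < b := by
    intro a ha b hb hab
    set m := (a + b) / 2 with hm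
    let f : ℝ → ℝ := fun t => max (m - t) 0
    let g : ℝ → ℝ := fun t => max (t - m) 0
    have hf : Continuous f := by fun_prop
    have hg : Continuous g := by fun_prop
    have hgf : cfc g T * cfc f T = 0 := by
      rw [← cfc_mul g f T]
      have : (fun t => g t * f t) = fun _ => (0:ℝ) := by
        funext t
        simp only [f, g]
        rcases le_total t m with h | h
        · rw [max_eq_right (by linarith : t - m ≤ 0), zero_mul]
        · rw [max_eq_right (by linarith : m - t ≤ 0), mul_zero]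
      rw [this]
      simp
    have hf0 : cfc f T ≠ 0 := by
      intro h
      have := norm_apply_le_norm_cfc f T ha
      rw [h, norm_zero, norm_le_zero_iff] at this
      simp only [f] at this
      have : m - a ≤ 0 := this ▸ le_max_left _ _
      linarith
    have hg0 : cfc g T ≠ 0 := by
      intro h
      have := norm_apply_le_norm_cfc g T hb
      rw [h, norm_zero, norm_le_zero_iff] at this
      simp only [g] at this
      have : b - m ≤ 0 := this ▸ le_max_left _ _
      linarith
    rcases hπ (cfc g T).ker (cfc g T).isClosed_ker (fun b x hx => by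
      have h1 : cfc g T * π b = π b * cfc g T := ((hc b).cfc_real g).eq
      have h2 := congrArg (fun S : H →L[ℂ] H => S x) h1
      simp only [mul_apply_eq_comp] at h2
      have hx' : cfc g T x = 0 := hx
      show cfc g T (π b x) = 0
      rw [h2, hx', map_zero]) with h | h
    · refine hf0 (ContinuousLinearMap.ext fun x => ?_)
      have : cfc f T x ∈ (cfc g T).ker := by
        show cfc g T (cfc f T x) = 0
        rw [← mul_apply_eq_comp, hgf]; rfl
      rw [h] at this
      simpa using this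
    · refine hg0 (ContinuousLinearMap.ext fun x => ?_)
      have : x ∈ (cfc g T).ker := h ▸ Submodule.mem_top
      exact this
  obtain ⟨r, hr⟩ : ∃ r : ℝ, spectrum ℝ T ⊆ {r} := by
    rcases (spectrum ℝ T).eq_empty_or_nonempty with h | ⟨r, h⟩
    · exact ⟨0, by simp [h]⟩
    · exact ⟨r, fun a ha => le_antisymm (not_lt.1 (hsub r h a ha)) (not_lt.1 (hsub a ha r h))⟩
  refine ⟨r, ?_⟩
  rw [CFC.eq_algebraMap_of_spectrum_subset_singleton T r hr, Algebra.algebraMap_eq_smul_one]
  rfl

lemma schur {π : B →⋆ₐ[ℂ] (H →L[ℂ] H)} (hπ : Irr π) {T : H →L[ℂ] H}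
    (hc : ∀ b, Commute T (π b)) : ∃ c : ℂ, T = c • (1 : H →L[ℂ] H) := by
  have hs : ∀ b, Commute (star T) (π b) := fun b => by
    have := (hc (star b)).star_star
    rwa [map_star, star_star] at this
  obtain ⟨c1, h1⟩ := schur_sa hπ (T := T + star T) (IsSelfAdjoint.add_star_self T)
    (fun b => (hc b).add_left (hs b))
  obtain ⟨c2, h2⟩ := schur_sa hπ (T := I • (T - star T)) (by
    rw [IsSelfAdjoint, star_smul, star_sub, star_star]
    simp only [RCLike.star_def, conj_I, neg_smul]
    rw [← smul_neg, neg_sub]) (fun b => ((hc b).sub_left (hs b)).smul_left _)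
  refine ⟨(c1 - I * c2) / 2, ?_⟩
  have : T = (1 / 2 : ℂ) • ((T + star T) - I • (I • (T - star T))) := by
    rw [smul_smul, I_mul_I]
    module
  rw [this, h1, h2]
  module

section tuples

variable {ι : Type*} [Fintype ι]

/-- The diagonal operator on tuples. -/
noncomputable def diag (ι : Type*) [Fintype ι] (T : H →L[ℂ] H) :
    PiLp 2 (fun _ : ι => H) →L[ℂ] PiLp 2 (fun _ : ι => H) :=
  (PiLp.continuousLinearEquiv 2 ℂ (fun _ : ι => H)).symm.toContinuousLinearMap ∘L
    ContinuousLinearMap.pi fun j => T ∘L PiLp.proj 2 (fun _ : ι => H) j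

omit [CompleteSpace H] in
@[simp] lemma diag_apply (T : H →L[ℂ] H) (v : PiLp 2 (fun _ : ι => H)) (j : ι) :
    diag ι T v j = T (v j) := rfl

lemma dens {π : B →⋆ₐ[ℂ] (H →L[ℂ] H)} (hπ : Irr π) (z w : ι → H)
    (h : ∀ b, ∑ j, ⟪w j, π b (z j)⟫_ℂ = 0) (T : H →L[ℂ] H) : ∑ j, ⟪w j, T (z j)⟫_ℂ = 0 := by
  classical
  let zz : PiLp 2 (fun _ : ι => H) := WithLp.toLp 2 z
  let ww : PiLp 2 (fun _ : ι => H) := WithLp.toLp 2 w
  let K0 : Submodule ℂ (PiLp 2 (fun _ : ι => H)) :=
    { carrier := {v | ∃ b, v = diag ι (π b) zz}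
      add_mem' := by
        rintro _ _ ⟨a, rfl⟩ ⟨b, rfl⟩
        exact ⟨a + b, by ext j; simp⟩
      zero_mem' := ⟨0, by ext j; simp⟩
      smul_mem' := by
        rintro c _ ⟨a, rfl⟩
        exact ⟨c • a, by ext j; simp⟩ }
  let K := K0.topologicalClosure
  have hinv : ∀ b, ∀ v ∈ K, diag ι (π b) v ∈ K := by
    intro b v hv
    have : Set.MapsTo (diag ι (π b)) (K0 : Set _) (K0 : Set _) := by
      rintro _ ⟨a, rfl⟩
      exact ⟨b * a, by ext j; simp⟩
    exact this.closure (diag ι (π b)).continuous hv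
  have hcomm : ∀ b v, K.starProjection (diag ι (π b) v) = diag ι (π b) (K.starProjection v) := by
    intro b v
    refine Submodule.eq_starProjection_of_mem_orthogonal
      (hinv b _ (K.starProjection_apply_mem v)) ?_
    rw [← map_sub]
    intro k hk
    have := K.sub_starProjection_mem_orthogonal v _ (hinv (star b) k hk)
    rw [← this, PiLp.inner_apply, PiLp.inner_apply]
    exact Finset.sum_congr rfl fun j _ => inner_rep_right π b _ _
  let sg : ι → H →L[ℂ] PiLp 2 (fun _ : ι => H) := fun l =>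
    (PiLp.continuousLinearEquiv 2 ℂ (fun _ : ι => H)).symm.toContinuousLinearMap ∘L
      ContinuousLinearMap.single ℂ (fun _ : ι => H) l
  have hsg : ∀ l x j, sg l x j = (Pi.single l x : ι → H) j := fun _ _ _ => rfl
  have hdsg : ∀ (S : H →L[ℂ] H) l x, diag ι S (sg l x) = sg l (S x) := by
    intro S l x
    ext j
    rw [diag_apply, hsg, hsg]
    by_cases hj : j = l
    · subst hj; simp
    · simp [hj]
  have hsum : ∀ v : PiLp 2 (fun _ : ι => H), v = ∑ l, sg l (v l) := by
    intro v
    ext j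
    simp [hsg, Pi.single_apply]
  have hent : ∀ j l, ∃ c : ℂ, ∀ x, K.starProjection (sg l x) j = c • x := by
    intro j l
    obtain ⟨c, hc⟩ := schur hπ
      (T := PiLp.proj 2 (fun _ : ι => H) j ∘L K.starProjection ∘L sg l) (fun b => by
        ext x
        show K.starProjection (sg l (π b x)) j = π b (K.starProjection (sg l x) j)
        rw [← hdsg, hcomm, diag_apply])
    exact ⟨c, fun x => congrArg (fun S : H →L[ℂ] H => S x) hc⟩
  choose p hp using hent
  have hP : ∀ v j, K.starProjection v j = ∑ l, p j l • v l := by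
    intro v j
    conv_lhs => rw [hsum v]
    simp [hp]
  have hz : zz ∈ K := K0.le_topologicalClosure ⟨1, by ext j; simp⟩
  have hT : diag ι T zz ∈ K := by
    rw [← Submodule.starProjection_eq_self_iff]
    ext j
    have := congrArg (fun v => T (v j)) (Submodule.starProjection_eq_self_iff.2 hz)
    simp only [hP, map_sum, map_smul] at this
    rw [hP, diag_apply, ← this]
    rfl
  have hw : ww ∈ Kᗮ := by
    rw [Submodule.orthogonal_closure, Submodule.mem_orthogonal']
    rintro _ ⟨b, rfl⟩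
    exact h b
  exact (Submodule.mem_orthogonal' _ _).1 hw _ hT

lemma sa_approx {π : B →⋆ₐ[ℂ] (H →L[ℂ] H)} (hπ : Irr π) (x : ι → H) {T : H →L[ℂ] H}
    (hT : IsSelfAdjoint T) {ε : ℝ} (hε : 0 < ε) :
    ∃ b : B, IsSelfAdjoint b ∧ ∀ j, ‖π b (x j) - T (x j)‖ < ε := by
  let xx : PiLp 2 (fun _ : ι => H) := WithLp.toLp 2 x
  let S : Set (PiLp 2 (fun _ : ι => H)) := {v | ∃ b, IsSelfAdjoint b ∧ v = diag ι (π b) xx}
  have hsm : ∀ (r : ℝ) (b : B), IsSelfAdjoint b → IsSelfAdjoint ((r : ℂ) • b) := fun r b hb => by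
    rw [IsSelfAdjoint, star_smul, hb.star_eq]; simp
  have hconv : Convex ℝ S := by
    rintro _ ⟨a, ha, rfl⟩ _ ⟨b, hb, rfl⟩ r s _ _ _
    refine ⟨(r : ℂ) • a + (s : ℂ) • b, (hsm r a ha).add (hsm s b hb), ?_⟩
    rw [map_add, map_smul, map_smul]
    ext j
    simp
  have hmem : diag ι T xx ∈ closure S := by
    by_contra hn
    obtain ⟨f, u, h1, h2⟩ := RCLike.geometric_hahn_banach_point_closed (𝕜 := ℂ)
      hconv.closure isClosed_closure hn
    have hu : u < 0 := by
      simpa using h2 0 (subset_closure ⟨0, IsSelfAdjoint.zero _, by ext j; simp⟩)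
    have h0 : ∀ b, IsSelfAdjoint b → (f (diag ι (π b) xx)).re = 0 := by
      intro b hb
      by_contra hne
      have := h2 _ (subset_closure ⟨_, hsm (u / (f (diag ι (π b) xx)).re) b hb, rfl⟩)
      have e : diag ι (π (((u / (f (diag ι (π b) xx)).re : ℝ) : ℂ) • b)) xx =
          ((u / (f (diag ι (π b) xx)).re : ℝ) : ℂ) • diag ι (π b) xx := by ext j; simp
      rw [e, map_smul, smul_eq_mul, RCLike.re_to_complex, re_ofReal_mul,
        div_mul_cancel₀ _ hne] at this
      exact lt_irrefl _ this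
    let y := (InnerProductSpace.toDual ℂ _).symm f
    have hy : ∀ v, f v = ∑ j, ⟪y j, v j⟫_ℂ := fun v => by
      rw [← PiLp.inner_apply, InnerProductSpace.toDual_symm_apply]
    have key : ∀ S : H →L[ℂ] H, IsSelfAdjoint S →
        ∑ j : ι ⊕ ι, ⟪Sum.elim (fun j => y j) x j, S (Sum.elim x (fun j => y j) j)⟫_ℂ =
          2 * (f (diag ι S xx)).re := by
      intro S hS
      rw [Fintype.sum_sum_type]
      simp only [Sum.elim_inl, Sum.elim_inr]
      have e1 : ∑ j, ⟪y j, S (x j)⟫_ℂ = f (diag ι S xx) := by rw [hy]; rfl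
      have e2 : ∑ j, ⟪x j, S (y j)⟫_ℂ = (starRingEnd ℂ) (f (diag ι S xx)) := by
        rw [← e1, map_sum]
        refine Finset.sum_congr rfl fun j _ => ?_
        rw [inner_conj_symm, ← ContinuousLinearMap.adjoint_inner_left,
          ← ContinuousLinearMap.star_eq_adjoint, hS.star_eq]
      rw [e1, e2, add_conj]
      push_cast
      ring
    have := dens hπ (Sum.elim x (fun j => y j)) (Sum.elim (fun j => y j) x) (fun b => by
      have e : b = (ℜ b : B) + I • (ℑ b : B) := (realPart_add_I_smul_imaginaryPart b).symm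
      have k1 := key (π (ℜ b : B)) ((ℜ b).2.map π)
      have k2 := key (π (ℑ b : B)) ((ℑ b).2.map π)
      rw [h0 _ (ℜ b).2] at k1
      rw [h0 _ (ℑ b).2] at k2
      rw [e]
      simp only [map_add, map_smul, add_apply, smul_apply,
        inner_add_right, inner_smul_right, Finset.sum_add_distrib, ← Finset.mul_sum, k1, k2]
      simp) T
    rw [key T hT] at this
    have h3 : (f (diag ι T xx)).re = 0 := by
      have : ((f (diag ι T xx)).re : ℂ) = 0 := by simpa using this
      exact_mod_cast this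
    rw [RCLike.re_to_complex, h3] at h1
    linarith
  obtain ⟨_, ⟨b, hb, rfl⟩, hd⟩ := Metric.mem_closure_iff.1 hmem ε hε
  refine ⟨b, hb, fun j => lt_of_le_of_lt ?_ hd⟩
  rw [dist_comm, dist_eq_norm]
  exact PiLp.norm_apply_le (diag ι (π b) xx - diag ι T xx) j

lemma exists_cayley {h : B} (hh : IsSelfAdjoint h) :
    ∃ r : B, r * (h + I • 1) = 1 ∧ (h + I • 1) * r = 1 ∧ 1 - (2 * I) • r ∈ unitary B := by
  have hu : IsUnit (h + I • (1 : B)) := by
    by_contra hn
    have : -I ∈ spectrum ℂ h := by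
      rw [spectrum.mem_iff, Algebra.algebraMap_eq_smul_one]
      intro h'
      apply hn
      have := h'.neg
      rwa [neg_smul, neg_sub, sub_neg_eq_add] at this
    have := hh.mem_spectrum_eq_re this
    simp at this
  obtain ⟨u, hu⟩ := hu
  set r : B := ↑u⁻¹ with hr
  have h1 : r * (h + I • 1) = 1 := by rw [← hu]; simp [hr]
  have h2 : (h + I • 1) * r = 1 := by rw [← hu]; simp [hr]
  have hst : star (h + I • (1 : B)) = h - I • 1 := by
    rw [star_add, hh.star_eq, star_smul]; simp [sub_eq_add_neg]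
  have h3 : (h - I • 1) * star r = 1 := by rw [← hst, ← star_mul, h1, star_one]
  have h4 : star r * (h - I • 1) = 1 := by rw [← hst, ← star_mul, h2, star_one]
  have e1 : star r - r = (2 * I) • (star r * r) := by
    calc star r - r = star r * ((h + I • 1) * r) - star r * (h - I • 1) * r := by
          rw [h2, h4]; simp
      _ = star r * (((h + I • 1) - (h - I • 1)) * r) := by noncomm_ring
      _ = _ := by
          have : (h + I • (1 : B)) - (h - I • 1) = (2 * I) • 1 := by module
          rw [this]; simp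
  have e2 : star r - r = (2 * I) • (r * star r) := by
    calc star r - r = r * (h + I • 1) * star r - r * ((h - I • 1) * star r) := by
          rw [h1, h3]; simp
      _ = r * (((h + I • 1) - (h - I • 1)) * star r) := by noncomm_ring
      _ = _ := by
          have : (h + I • (1 : B)) - (h - I • 1) = (2 * I) • 1 := by module
          rw [this]; simp
  have hs : star (1 - (2 * I) • r) = 1 + (2 * I) • star r := by
    rw [star_sub, star_one, star_smul]; simp [sub_eq_add_neg]
  refine ⟨r, h1, h2, ?_, ?_⟩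
  · rw [hs]
    calc (1 + (2 * I) • star r) * (1 - (2 * I) • r)
        = 1 + (2 * I) • (star r - r - (2 * I) • (star r * r)) := by
          simp only [add_mul, mul_sub, one_mul, mul_one, smul_mul_assoc, mul_smul_comm]
          module
      _ = 1 := by rw [e1]; simp
  · rw [hs]
    calc (1 - (2 * I) • r) * (1 + (2 * I) • star r)
        = 1 + (2 * I) • (star r - r - (2 * I) • (r * star r)) := by
          simp only [mul_add, sub_mul, one_mul, mul_one, smul_mul_assoc, mul_smul_comm]
          module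
      _ = 1 := by rw [e2]; simp

lemma norm_rep_unitary (π : B →⋆ₐ[ℂ] (H →L[ℂ] H)) {u : B} (hu : u ∈ unitary B) (x : H) :
    ‖π u x‖ = ‖x‖ := by
  have : ⟪π u x, π u x⟫_ℂ = ⟪x, x⟫_ℂ := by
    rw [inner_rep_left, ← rep_mul, hu.1, rep_one]
  rw [inner_self_eq_norm_sq_to_K, inner_self_eq_norm_sq_to_K] at this
  have h2 : ‖π u x‖ ^ 2 = ‖x‖ ^ 2 := by exact_mod_cast this
  exact (pow_left_inj₀ (norm_nonneg _) (norm_nonneg _) two_ne_zero).1 h2

/-- Approximate transitivity of the unitaries commuting with a projection. -/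
lemma exists_unitary {π : B →⋆ₐ[ℂ] (H →L[ℂ] H)} (hπ : Irr π) {e : B} (he : IsSelfAdjoint e)
    (hee : e * e = e) (f g : ι → H) (hf : Orthonormal ℂ f) (hg : Orthonormal ℂ g)
    (hfg : ∀ a b, ⟪f a, g b⟫_ℂ = 0) (hef : ∀ a, π e (f a) = f a) (heg : ∀ a, π e (g a) = g a)
    {ε : ℝ} (hε : 0 < ε) :
    ∃ Y ∈ unitary B, Commute Y e ∧ ∀ a, ‖π Y (g a) - f a‖ < ε := by
  classical
  let R : H →L[ℂ] H := ∑ a, InnerProductSpace.rankOne ℂ (f a) (g a)
  have hR : ∀ x, R x = ∑ a, ⟪g a, x⟫_ℂ • f a := fun x => by simp [R]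
  have hRs : ∀ x, star R x = ∑ a, ⟪f a, x⟫_ℂ • g a := fun x => by
    simp [R, star_sum, ContinuousLinearMap.star_eq_adjoint]
  have hgf : ∀ a b, ⟪g a, f b⟫_ℂ = 0 := fun a b => inner_eq_zero_symm.1 (hfg b a)
  let T : H →L[ℂ] H := I • (R - star R)
  have hT : IsSelfAdjoint T := by
    rw [IsSelfAdjoint, star_smul, star_sub, star_star]
    simp only [RCLike.star_def, conj_I, neg_smul]
    rw [← smul_neg, neg_sub]
  have hTg : ∀ a, T (g a) = I • f a := fun a => by
    simp [T, hR, hRs, hfg, orthonormal_iff_ite.1 hg]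
  have hTf : ∀ a, T (f a) = -(I • g a) := fun a => by
    simp [T, hR, hRs, hgf, orthonormal_iff_ite.1 hf]
  obtain ⟨b, hb, hap⟩ := sa_approx hπ (Sum.elim f g) hT (half_pos hε)
  have hh : IsSelfAdjoint (e * b * e) := by
    rw [IsSelfAdjoint, star_mul, star_mul, he.star_eq, hb.star_eq, mul_assoc]
  obtain ⟨r, h1, h2, hY⟩ := exists_cayley hh
  have hce : Commute (e * b * e + I • 1) e := by
    refine Commute.add_left ?_ ((Commute.one_left e).smul_left _)
    show e * b * e * e = e * (e * b * e)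
    rw [mul_assoc _ e e, hee, ← mul_assoc, ← mul_assoc, hee]
  have hre : Commute r e := by
    show r * e = e * r
    calc r * e = r * e * ((e * b * e + I • 1) * r) := by rw [h2, mul_one]
      _ = r * ((e * (e * b * e + I • 1))) * r := by noncomm_ring
      _ = e * r := by rw [← hce.eq, ← mul_assoc, h1, one_mul]
  refine ⟨_, hY, (Commute.one_left e).sub_left (hre.smul_left _), fun a => ?_⟩
  have hne : ∀ x, ‖π e x‖ ≤ ‖x‖ := fun x => by
    refine (norm_rep_le π e x).trans (mul_le_of_le_one_left (norm_nonneg _) ?_)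
    exact IsStarProjection.norm_le e ⟨hee, he⟩
  have hrn : ∀ x, ‖π r x‖ ≤ ‖x‖ := fun x => by
    have e1 : (2 * I) • π r x = x - π (1 - (2 * I) • r) x := by simp
    have e2 : ‖(2 * I) • π r x‖ = 2 * ‖π r x‖ := by rw [norm_smul]; simp
    have e3 := norm_sub_le x (π (1 - (2 * I) • r) x)
    rw [norm_rep_unitary π hY] at e3
    rw [e1] at e2
    linarith
  set d1 := π b (g a) - T (g a) with hd1
  set d2 := π b (f a) - T (f a) with hd2
  have hd1' : ‖d1‖ < ε / 2 := hap (Sum.inr a)
  have hd2' : ‖d2‖ < ε / 2 := hap (Sum.inl a)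
  have k1 : π (e * b * e + I • 1) (g a - f a) = (2 * I) • g a + π e (d1 - d2) := by
    have a1 : π b (g a) = I • f a + d1 := by rw [hd1, hTg]; abel
    have a2 : π b (f a) = -(I • g a) + d2 := by rw [hd2, hTf]; abel
    simp only [map_add, map_smul, map_one, add_apply, map_sub, rep_mul, hef,
      heg, smul_apply, one_apply_eq_self, a1, a2, map_neg]
    module
  have k2 : g a - f a = (2 * I) • π r (g a) + π r (π e (d1 - d2)) := by
    rw [← map_smul, ← map_add, ← k1, ← rep_mul, h1, rep_one]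
  have k3 : π (1 - (2 * I) • r) (g a) - f a = π r (π e (d1 - d2)) := by
    simp only [map_sub (π), map_one, map_smul, sub_apply,
      one_apply_eq_self, smul_apply]
    rw [sub_right_comm, k2]
    abel
  rw [k3]
  have := norm_sub_le d1 d2
  linarith [hrn (π e (d1 - d2)), hne (d1 - d2)]

end tuples

end Vale.Agent.P070
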