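import Vale.Agent.P070.Defs
import Vale.Agent.P070.Ambient
import Vale.Agent.P070.Cuntz

/-! Assembly of the counterexample. -/

open scoped InnerProductSpace

namespace Vale.Agent.P070

universe u v w

variable {B : Type*} [CStarAlgebra B] {A : Type*} [CStarAlgebra A]
variable {H : Type*} [NormedAddCommGroup H] [InnerProductSpace ℂ H] [CompleteSpace H]

lemma exists_unital {π : A →⋆ₙₐ[ℂ] (H →L[ℂ] H)} (hπ : IsIrreducibleRep π) :
    Nontrivial H ∧ ∃ ρ : A →⋆ₐ[ℂ] (H →L[ℂ] H), Irr ρ ∧ ∀ a, ρ a = π a := by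
  obtain ⟨⟨a, ha⟩, hirr⟩ := hπ
  have hm : ∀ a b x, π (a * b) x = π a (π b x) := fun a b x => by rw [map_mul]; rfl
  have h1 : π 1 = 1 := by
    rcases hirr (π 1).ker (π 1).isClosed_ker (fun b x hx => by
      have hx' : π 1 x = 0 := hx
      change π 1 (π b x) = 0
      rw [← hm, one_mul, ← mul_one b, hm, hx', map_zero]) with h | h
    · ext x
      have : π 1 x - x ∈ (π 1).ker := by
        change π 1 (π 1 x - x) = 0
        rw [map_sub, ← hm, one_mul, sub_self]
      rw [h, Submodule.mem_bot, sub_eq_zero] at this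
      exact this
    · refine absurd (ContinuousLinearMap.ext fun x => ?_) ha
      have : π 1 x = 0 := (h ▸ Submodule.mem_top : x ∈ (π 1).ker)
      rw [← mul_one a, hm, this, map_zero]
      rfl
  refine ⟨?_, ⟨{ π with
    map_one' := h1
    commutes' := fun c => ?_ }, hirr, fun _ => rfl⟩⟩
  · by_contra h
    rw [not_nontrivial_iff_subsingleton] at h
    exact ha (ContinuousLinearMap.ext fun x => Subsingleton.elim _ _)
  · change π (algebraMap ℂ A c) = _
    rw [Algebra.algebraMap_eq_smul_one, Algebra.algebraMap_eq_smul_one, map_smul, h1]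

lemma Amb.propertyN {S : Sys B} (M : Amb S A) [Nontrivial A] : PropertyN.{u, v} A := by
  refine ⟨inferInstance, fun H _ _ _ H' _ _ _ π σ hπ hσ => ?_⟩
  obtain ⟨_, ρ, h1, h2⟩ := exists_unital hπ
  obtain ⟨_, ρ', h1', h2'⟩ := exists_unital hσ
  obtain ⟨U, hU⟩ := M.unique h1 h1'
  exact ⟨U, fun a x => by rw [← h2, ← h2', hU]⟩

lemma Amb.not_finiteDimensional {S : Sys B} (M : Amb S A) [Nontrivial A] :
    ¬ FiniteDimensional ℂ A := by
  intro hfin
  have hmul : ∀ i j, i ≠ j → (S.E i - S.E (i + 1)) * (S.E j - S.E (j + 1)) = 0 := by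
    intro i j hij
    rw [sub_mul, mul_sub, mul_sub]
    rcases lt_or_gt_of_ne hij with h | h
    · rw [S.E_mul_E h.le, S.E_mul_E (by omega), S.E_mul_E (by omega), S.E_mul_E (by omega),
        sub_self]
    · rw [S.E_mul_E' h.le, S.E_mul_E' (by omega), S.E_mul_E' (by omega), S.E_mul_E' (by omega),
        sub_self, sub_self, sub_self]
  have hid : ∀ i, (S.E i - S.E (i + 1)) * (S.E i - S.E (i + 1)) = S.E i - S.E (i + 1) := by
    intro i
    rw [sub_mul, mul_sub, mul_sub, S.E_E, S.E_E, S.E_mul_E (by omega), S.E_mul_E' (by omega),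
      sub_self, sub_zero]
  have hli : LinearIndependent ℂ fun i => M.ι (S.E i - S.E (i + 1)) := by
    rw [linearIndependent_iff']
    intro s g hs i hi
    have := congrArg (M.ι (S.E i - S.E (i + 1)) * ·) hs
    simp only [Finset.mul_sum, mul_smul_comm, ← map_mul, mul_zero] at this
    rw [Finset.sum_eq_single i (fun j _ hj => by rw [hmul i j hj.symm, map_zero, smul_zero])
      (fun h => absurd hi h), hid] at this
    exact (smul_eq_zero.1 this).resolve_right (S.map_E_sub_ne_zero (M.ι : B →+* A) i)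
  exact not_finite_iff_infinite.2 (inferInstanceAs (Infinite ℕ)) hli.finite

lemma not_isoToCompacts (h : ¬ FiniteDimensional ℂ A) : ¬ IsoToCompacts.{u} A := by
  rintro ⟨H, _, _, _, Φ, hinj, hr⟩
  have h1 : Φ 1 = ContinuousLinearMap.id ℂ H := by
    ext x
    have hc : IsCompactOperator (InnerProductSpace.rankOne ℂ x x) :=
      (isCompactOperator_of_locallyCompactSpace_rng
        (ContinuousLinearMap.toSpanSingleton ℂ x)).comp_clm (innerSL ℂ x)
    obtain ⟨a, ha⟩ : InnerProductSpace.rankOne ℂ x x ∈ Set.range Φ := hr ▸ hc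
    have := congrArg (fun T : H →L[ℂ] H => T x) (map_mul Φ 1 a)
    simp only [one_mul, ha, mul_apply_eq_comp, InnerProductSpace.rankOne_apply, map_smul] at this
    by_cases hx : x = 0
    · simp [hx]
    · exact (smul_right_injective H (inner_self_ne_zero.2 hx) this).symm
  have h2 : IsCompactOperator (Φ 1) := (hr ▸ ⟨1, rfl⟩ : Φ 1 ∈ {T : H →L[ℂ] H | IsCompactOperator T})
  rw [h1] at h2
  have : FiniteDimensional ℂ H := FiniteDimensional.of_isCompactOperator_id h2
  exact h (FiniteDimensional.of_injective (Φ : A →ₗ[ℂ] (H →L[ℂ] H)) hinj)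

theorem exists_counterexample :
    ∃ (A : Type) (_ : CStarAlgebra A), PropertyN.{u, v} A ∧ ¬ IsoToCompacts.{w} A := by
  obtain ⟨C⟩ := exists_cuntz
  have hδ : ‖(lp.single 2 0 (1 : ℂ) : L2)‖ = 1 := orthonormal_single.1 0
  have : Nontrivial L2 := ⟨⟨lp.single 2 0 (1 : ℂ), 0, fun h => by
    rw [h, norm_zero] at hδ; exact zero_ne_one hδ⟩⟩
  obtain ⟨A, _, _, ⟨M⟩⟩ := exists_amb C.sys C.core.subtype hδ
  exact ⟨A, inferInstance, M.propertyN, not_isoToCompacts M.not_finiteDimensional⟩

end Vale.Agent.P070
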