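import Vale.Agent.P070.Step

/-! Germs of unitary sequences and the pure states that they excise. -/

open scoped InnerProductSpace Topology
open Complex Filter

namespace Vale.Agent.P070

variable {B : Type*} [CStarAlgebra B]
variable {H : Type*} [NormedAddCommGroup H] [InnerProductSpace ℂ H] [CompleteSpace H]

/-- A sequence of unitaries stabilising off the projections `E`, whose conjugates of `E`
excise a state. -/
structure Germ (S : Sys B) where
  n : ℕ → ℕ
  W : ℕ → B
  le_n : ∀ j, j ≤ n j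
  mono : Monotone n
  unit : ∀ j, W j ∈ unitary B
  step : ∀ j, W (j + 1) * (1 - S.E (n j)) = W j * (1 - S.E (n j))
  exc : ∀ b (ε : ℝ), 0 < ε → ∃ j, ∃ c : ℂ,
    ‖W j * S.E (n j) * star (W j) * b * (W j * S.E (n j) * star (W j)) -
      c • (W j * S.E (n j) * star (W j))‖ < ε

lemma norm_conj_le {p : B} (hp : ‖p‖ ≤ 1) {p' : B} (hp' : ‖p'‖ ≤ 1) (x : B) :
    ‖p * x * p'‖ ≤ ‖x‖ := by
  refine norm_mul₃_le.trans ?_
  have h0 := norm_nonneg p
  calc _ ≤ 1 * ‖x‖ * 1 := by gcongr
    _ = _ := by ring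

section q

variable {S : Sys B} {n : ℕ → ℕ} {W : ℕ → B}

lemma W_stable (mono : Monotone n)
    (step : ∀ j, W (j + 1) * (1 - S.E (n j)) = W j * (1 - S.E (n j))) {j k : ℕ} (h : j ≤ k) :
    W k * (1 - S.E (n j)) = W j * (1 - S.E (n j)) := by
  induction k, h using Nat.le_induction with
  | base => rfl
  | succ k hk ih =>
    have e : (1 - S.E (n k)) * (1 - S.E (n j)) = 1 - S.E (n j) := by
      rw [sub_mul, one_mul, mul_sub, mul_one, S.E_mul_E' (mono hk), sub_self, sub_zero]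
    rw [← ih]
    conv_lhs => rw [← e, ← mul_assoc, step, mul_assoc, e]

lemma q_mul_q' (mono : Monotone n) (unit : ∀ j, W j ∈ unitary B)
    (step : ∀ j, W (j + 1) * (1 - S.E (n j)) = W j * (1 - S.E (n j))) {j k : ℕ} (h : j ≤ k) :
    W j * S.E (n j) * star (W j) * (W k * S.E (n k) * star (W k)) =
      W k * S.E (n k) * star (W k) := by
  have e1 : W j * S.E (n j) * star (W j) = 1 - W j * (1 - S.E (n j)) * star (W j) := by
    rw [mul_sub, sub_mul, mul_one, (unit j).2]; abel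
  have e2 : (1 - S.E (n j)) * star (W j) = (1 - S.E (n j)) * star (W k) := by
    have := congrArg star (W_stable mono step h)
    simpa using this.symm
  rw [e1, mul_assoc (W j), e2, sub_mul, one_mul, sub_eq_self]
  calc _ = W j * ((1 - S.E (n j)) * (star (W k) * W k) * S.E (n k)) * star (W k) := by noncomm_ring
    _ = 0 := by rw [(unit k).1, mul_one, sub_mul, one_mul, S.E_mul_E (mono h)]; simp

end q

namespace Germ

variable {S : Sys B} (G : Germ S)

/-- The excising projections of a germ. -/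
def q (j : ℕ) : B := G.W j * S.E (G.n j) * star (G.W j)

lemma q_mul_q {j k : ℕ} (h : j ≤ k) : G.q j * G.q k = G.q k := q_mul_q' G.mono G.unit G.step h

@[simp] lemma star_q (j : ℕ) : star (G.q j) = G.q j := by simp [q, mul_assoc]

lemma q_mul_q_rev {j k : ℕ} (h : j ≤ k) : G.q k * G.q j = G.q k := by
  have := congrArg star (G.q_mul_q h)
  rwa [star_mul, G.star_q, G.star_q] at this

lemma norm_q_le (j : ℕ) : ‖G.q j‖ ≤ 1 :=
  IsStarProjection.norm_le _ ⟨G.q_mul_q le_rfl, G.star_q j⟩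

lemma one_sub_q (j : ℕ) : 1 - G.q j = G.W j * (1 - S.E (G.n j)) * star (G.W j) := by
  rw [mul_sub, sub_mul, mul_one, (G.unit j).2, q]

lemma exc' (b : B) {ε : ℝ} (hε : 0 < ε) :
    ∃ c : ℂ, ∀ᶠ k in atTop, ‖G.q k * b * G.q k - c • G.q k‖ < ε := by
  obtain ⟨j, c, hc⟩ := G.exc b ε hε
  refine ⟨c, eventually_atTop.2 ⟨j, fun k hk => lt_of_le_of_lt ?_ hc⟩⟩
  change _ ≤ ‖G.q j * b * G.q j - c • G.q j‖
  have : G.q k * b * G.q k - c • G.q k = G.q k * (G.q j * b * G.q j - c • G.q j) * G.q k := by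
    calc _ = (G.q k * G.q j) * b * (G.q j * G.q k) - c • ((G.q k * G.q j) * G.q k) := by
          rw [G.q_mul_q_rev hk, G.q_mul_q hk, G.q_mul_q le_rfl]
      _ = _ := by
          simp only [mul_sub, sub_mul, mul_smul_comm, smul_mul_assoc, mul_assoc]
  rw [this]
  exact norm_conj_le (G.norm_q_le k) (G.norm_q_le k) _

end Germ

/-- The trivial germ. -/
def Sys.idGerm (S : Sys B) : Germ S where
  n := id
  W := fun _ => 1
  le_n := fun _ => le_rfl
  mono := monotone_id
  unit := fun _ => one_mem _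
  step := fun _ => rfl
  exc := fun b ε hε => by simpa using S.exc_E b hε

@[simp] lemma Sys.idGerm_q (S : Sys B) (j : ℕ) : S.idGerm.q j = S.E j := by
  simp [Germ.q, Sys.idGerm]

/-- Every irreducible representation has a vector fixed by some germ. -/
lemma Sys.exists_germ (S : Sys B) {π : B →⋆ₐ[ℂ] (H →L[ℂ] H)} (hπ : Irr π) [Nontrivial H] :
    ∃ G : Germ S, ∃ v : H, ‖v‖ = 1 ∧ ∀ j, π (G.q j) v = v := by
  have := S.separable
  have : Nonempty B := ⟨0⟩
  let bs := TopologicalSpace.denseSeq B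
  let St := {p : ℕ × B × H // p.2.1 ∈ unitary B ∧ ‖p.2.2‖ = 1 ∧ π (S.E p.1) p.2.2 = p.2.2}
  have hstep : ∀ (r : ℕ) (p : St), ∃ p' : St, p.1.1 < p'.1.1 ∧
      p'.1.2.1 * (1 - S.E p.1.1) = p.1.2.1 * (1 - S.E p.1.1) ∧
      (∃ c : ℂ, ‖p'.1.2.1 * S.E p'.1.1 * star p'.1.2.1 * bs r.unpair.1 *
        (p'.1.2.1 * S.E p'.1.1 * star p'.1.2.1) - c • (p'.1.2.1 * S.E p'.1.1 * star p'.1.2.1)‖ <
          1 / 2 / 2 ^ r) ∧
      ‖π p'.1.2.1 p'.1.2.2 - π p.1.2.1 p.1.2.2‖ < 1 / 2 / 2 ^ r := by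
    rintro r ⟨⟨j, W, ξ⟩, hW, h1, h2⟩
    obtain ⟨j', hj', U, hU, hUE, ⟨c, hc⟩, η, hη1, hη2, hη3⟩ :=
      S.step hπ j h1 h2 (star W * bs r.unpair.1 * W) (ε := 1 / 2 / 2 ^ r) (by positivity)
    have hWU := mul_mem hW hU
    refine ⟨⟨⟨j', W * U, η⟩, hWU, hη1, hη2⟩, hj', by simp only [mul_assoc, hUE],
      ⟨c, lt_of_eq_of_lt ?_ hc⟩, lt_of_eq_of_lt ?_ hη3⟩
    · rw [← CStarRing.norm_mem_unitary_mul
        (S.E j' * star U * (star W * bs r.unpair.1 * W) * U * S.E j' - c • S.E j') hWU,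
        ← CStarRing.norm_mul_mem_unitary (W * U * _) (Unitary.star_mem hWU)]
      congr 1
      simp only [mul_sub, sub_mul, mul_smul_comm, smul_mul_assoc, mul_assoc, star_mul]
    · simp only
      rw [rep_mul, ← map_sub, norm_rep_unitary π hW]
  choose nx h1 h2 h3 h4 using hstep
  obtain ⟨ζ, hζ1, hζ2⟩ := S.exists_unit π 0
  let sq : ℕ → St := fun r => Nat.rec ⟨⟨0, 1, ζ⟩, one_mem _, hζ1, hζ2⟩ nx r
  have hsq : ∀ r, sq (r + 1) = nx r (sq r) := fun _ => rfl
  have hsm : StrictMono fun r => (sq r).1.1 := strictMono_nat_of_lt_succ fun r => h1 r (sq r)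
  let G : Germ S :=
    { n := fun r => (sq r).1.1
      W := fun r => (sq r).1.2.1
      le_n := fun r => hsm.le_apply
      mono := hsm.monotone
      unit := fun r => (sq r).2.1
      step := fun r => h2 r (sq r)
      exc := fun b ε hε => by
        obtain ⟨m, hm⟩ := (TopologicalSpace.denseRange_denseSeq B).exists_dist_lt b (half_pos hε)
        obtain ⟨t, ht⟩ := exists_pow_lt_of_lt_one (half_pos hε) (by norm_num : (1 / 2 : ℝ) < 1)
        obtain ⟨c, hc⟩ := h3 (Nat.pair m t) (sq (Nat.pair m t))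
        rw [Nat.unpair_pair, ← hsq] at hc
        refine ⟨Nat.pair m t + 1, c, ?_⟩
        set p := (sq (Nat.pair m t + 1)).1.2.1 * S.E (sq (Nat.pair m t + 1)).1.1 *
          star (sq (Nat.pair m t + 1)).1.2.1 with hp
        have hpn : ‖p‖ ≤ 1 := by
          rw [hp, CStarRing.norm_mul_mem_unitary _ (Unitary.star_mem (sq (Nat.pair m t + 1)).2.1),
            CStarRing.norm_mem_unitary_mul _ (sq (Nat.pair m t + 1)).2.1]
          exact S.norm_E_le _
        have e : p * b * p - c • p = p * (b - bs m) * p + (p * bs m * p - c • p) := by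
          noncomm_ring
        have h5 : (1 / 2 / 2 ^ Nat.pair m t : ℝ) ≤ (1 / 2) ^ t := by
          have : (2 : ℝ) ^ t ≤ 2 ^ Nat.pair m t :=
            pow_le_pow_right₀ (by norm_num) (Nat.right_le_pair m t)
          rw [one_div_pow, div_le_div_iff₀ (by positivity) (by positivity)]
          have : (0 : ℝ) < 2 ^ t := by positivity
          linarith
        have h6 := norm_conj_le hpn hpn (b - bs m)
        rw [dist_eq_norm] at hm
        rw [e]
        refine (norm_add_le _ _).trans_lt ?_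
        have h7 : ‖b - bs m‖ < ε / 2 := hm
        have h8 : ‖p * bs m * p - c • p‖ < 1 / 2 / 2 ^ Nat.pair m t := hc
        linarith }
  let v : ℕ → H := fun r => π (sq r).1.2.1 (sq r).1.2.2
  have hv : CauchySeq v := cauchySeq_of_le_geometric_two (C := 1) fun r => by
    rw [dist_comm, dist_eq_norm]
    exact (h4 r (sq r)).le
  obtain ⟨w, hw⟩ := cauchySeq_tendsto_of_complete hv
  refine ⟨G, w, ?_, fun j => ?_⟩
  · refine tendsto_nhds_unique hw.norm ?_
    have : ∀ r, ‖v r‖ = 1 := fun r => by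
      simp only [v]
      rw [norm_rep_unitary π (sq r).2.1, (sq r).2.2.1]
    simp [this]
  · refine tendsto_nhds_unique (((π (G.q j)).continuous.tendsto w).comp hw) (hw.congr' ?_)
    refine eventually_atTop.2 ⟨j, fun r hr => ?_⟩
    have e : π (G.q r) (v r) = v r := by
      change π ((sq r).1.2.1 * S.E (sq r).1.1 * star (sq r).1.2.1) (π (sq r).1.2.1 (sq r).1.2.2) = _
      rw [← rep_mul, mul_assoc, (sq r).2.1.1, mul_one, rep_mul, (sq r).2.2.2]
    change v r = π (G.q j) (v r)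
    conv_rhs => rw [← e, ← rep_mul, G.q_mul_q hr, e]

end Vale.Agent.P070
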