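import Vale.Agent.P070.Germ

/-! The abstract argument: adjoining the germs of a maximal unlinked family. -/

open scoped InnerProductSpace Topology
open Complex Filter

namespace Vale.Agent.P070

variable {B : Type*} [CStarAlgebra B] {A : Type*} [CStarAlgebra A]
variable {H : Type*} [NormedAddCommGroup H] [InnerProductSpace ℂ H] [CompleteSpace H]
variable {H' : Type*} [NormedAddCommGroup H'] [InnerProductSpace ℂ H'] [CompleteSpace H']

/-- Two germs are unlinked when they excise disjoint states. -/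
def Unlinked {S : Sys B} (V W : Germ S) : Prop :=
  ∀ b (c : ℝ), 0 < c → ∃ j, ‖V.q j * b * W.q j‖ < c

lemma Unlinked.symm {S : Sys B} {V W : Germ S} (h : Unlinked V W) : Unlinked W V := by
  intro b c hc
  obtain ⟨j, hj⟩ := h (star b) c hc
  refine ⟨j, ?_⟩
  rw [← norm_star] at hj
  simpa [mul_assoc] using hj

lemma Unlinked.eventually {S : Sys B} {V W : Germ S} (h : Unlinked V W) (b : B) {c : ℝ}
    (hc : 0 < c) : ∀ᶠ k in atTop, ‖V.q k * b * W.q k‖ < c := by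
  obtain ⟨j, hj⟩ := h b c hc
  refine eventually_atTop.2 ⟨j, fun k hk => lt_of_le_of_lt ?_ hj⟩
  have : V.q k * b * W.q k = V.q k * (V.q j * b * W.q j) * W.q k := by
    calc _ = (V.q k * V.q j) * b * (W.q j * W.q k) := by rw [V.q_mul_q_rev hk, W.q_mul_q hk]
      _ = _ := by noncomm_ring
  rw [this]
  exact norm_conj_le (V.norm_q_le k) (W.norm_q_le k) _

lemma exists_limit_fixed (p : ℕ → H →L[ℂ] H) (hs : ∀ j, star (p j) = p j)
    (hp : ∀ j k, j ≤ k → p j * p k = p k) (x : H) :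
    ∃ y, Tendsto (fun j => p j x) atTop (𝓝 y) ∧ ∀ j, p j y = y := by
  have hpy : ∀ j k, j ≤ k → ‖p j x - p k x‖ ^ 2 = ‖p j x‖ ^ 2 - ‖p k x‖ ^ 2 := by
    intro j k h
    have e : ⟪p j x, p k x⟫_ℂ = ⟪p k x, p k x⟫_ℂ := by
      have e1 : ∀ i, ⟪p i x, p k x⟫_ℂ = ⟪x, (p i * p k) x⟫_ℂ := fun i => by
        conv_lhs => rw [← hs i]
        rw [ContinuousLinearMap.star_eq_adjoint, ContinuousLinearMap.adjoint_inner_left]
        rfl
      rw [e1, e1, hp j k h, hp k k le_rfl]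
    rw [@norm_sub_sq ℂ, e, inner_self_eq_norm_sq]
    ring
  have hanti : Antitone fun j => ‖p j x‖ ^ 2 := fun j k h => by
    have := hpy j k h
    have := sq_nonneg ‖p j x - p k x‖
    simp only
    linarith
  have hcau := (tendsto_atTop_ciInf hanti ⟨0, by rintro _ ⟨j, rfl⟩; positivity⟩).cauchySeq
  have hc : CauchySeq fun j => p j x := by
    rw [Metric.cauchySeq_iff'] at hcau ⊢
    intro ε hε
    obtain ⟨N, hN⟩ := hcau (ε ^ 2) (by positivity)
    refine ⟨N, fun n hn => ?_⟩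
    have h1 := hN n hn
    rw [dist_comm, Real.dist_eq, ← hpy N n hn] at h1
    rw [dist_comm, dist_eq_norm]
    exact lt_of_pow_lt_pow_left₀ 2 hε.le (lt_of_le_of_lt (le_abs_self _) h1)
  obtain ⟨y, hy⟩ := cauchySeq_tendsto_of_complete hc
  refine ⟨y, hy, fun j => tendsto_nhds_unique (((p j).continuous.tendsto y).comp hy)
    (hy.congr' (eventually_atTop.2 ⟨j, fun k hk => ?_⟩))⟩
  change p k x = (p j * p k) x
  rw [hp j k hk]

/-- The product of two representations. -/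
noncomputable def pr (π : A →⋆ₐ[ℂ] (H →L[ℂ] H)) (σ : A →⋆ₐ[ℂ] (H' →L[ℂ] H')) :
    A →ₐ[ℂ] (H × H' →L[ℂ] H × H') where
  toFun a := (π a).prodMap (σ a)
  map_one' := by ext <;> simp
  map_mul' a b := by ext <;> simp
  map_zero' := by ext <;> simp
  map_add' a b := by ext <;> simp
  commutes' c := by ext <;> simp [Algebra.algebraMap_eq_smul_one]

@[simp] lemma pr_fst (π : A →⋆ₐ[ℂ] (H →L[ℂ] H)) (σ : A →⋆ₐ[ℂ] (H' →L[ℂ] H')) (a : A)
    (z : H × H') : (pr π σ a z).1 = π a z.1 := rfl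

@[simp] lemma pr_snd (π : A →⋆ₐ[ℂ] (H →L[ℂ] H)) (σ : A →⋆ₐ[ℂ] (H' →L[ℂ] H')) (a : A)
    (z : H × H') : (pr π σ a z).2 = σ a z.2 := rfl

lemma pr_mul (π : A →⋆ₐ[ℂ] (H →L[ℂ] H)) (σ : A →⋆ₐ[ℂ] (H' →L[ℂ] H')) (a b : A)
    (z : H × H') : pr π σ (a * b) z = pr π σ a (pr π σ b z) := by
  rw [map_mul]; rfl

lemma norm_pr_le (π : A →⋆ₐ[ℂ] (H →L[ℂ] H)) (σ : A →⋆ₐ[ℂ] (H' →L[ℂ] H')) (a : A)
    (z : H × H') : ‖pr π σ a z‖ ≤ ‖a‖ * ‖z‖ := by
  rw [Prod.norm_def, max_le_iff]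
  exact ⟨(norm_rep_le π a z.1).trans (by gcongr; exact norm_fst_le z),
    (norm_rep_le σ a z.2).trans (by gcongr; exact norm_snd_le z)⟩

lemma continuous_pr (π : A →⋆ₐ[ℂ] (H →L[ℂ] H)) (σ : A →⋆ₐ[ℂ] (H' →L[ℂ] H')) (z : H × H') :
    Continuous fun a => pr π σ a z := by
  refine (LipschitzWith.of_dist_le_mul (K := ‖z‖₊) fun a b => ?_).continuous
  rw [dist_eq_norm, dist_eq_norm, ← sub_apply, ← map_sub, mul_comm]
  exact norm_pr_le π σ _ z

/-- The data of the algebra obtained by adjoining a maximal unlinked family of germs. -/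
structure Amb (S : Sys B) (A : Type*) [CStarAlgebra A] where
  ι : B →⋆ₐ[ℂ] A
  Ψ : Set (Germ S)
  u : Ψ → A
  id_mem : S.idGerm ∈ Ψ
  pair : Ψ.Pairwise Unlinked
  maxl : ∀ V, ∃ W ∈ Ψ, ¬ Unlinked V W
  u_unit : ∀ W, u W ∈ unitary A
  u_E : ∀ W j, u W * ι (1 - S.E (W.1.n j)) = ι (W.1.W j * (1 - S.E (W.1.n j)))
  u_id : u ⟨S.idGerm, id_mem⟩ = 1
  gen : ∀ T : StarSubalgebra ℂ A, IsClosed (T : Set A) → (∀ b, ι b ∈ T) → (∀ W, u W ∈ T) → T = ⊤

namespace Amb

variable {S : Sys B} (M : Amb S A)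

lemma E_star_u (W : M.Ψ) (j : ℕ) :
    M.ι (1 - S.E (W.1.n j)) * star (M.u W) = M.ι ((1 - S.E (W.1.n j)) * star (W.1.W j)) := by
  have := congrArg star (M.u_E W j)
  rw [star_mul, ← map_star, ← map_star] at this
  simpa using this

lemma u_conj (W : M.Ψ) (j : ℕ) :
    M.ι (1 - W.1.q j) = M.u W * M.ι (1 - S.E (W.1.n j)) * star (M.u W) := by
  have e : (1 - S.E (W.1.n j)) * (1 - S.E (W.1.n j)) = 1 - S.E (W.1.n j) := by
    simp [mul_sub, sub_mul]
  calc _ = M.ι (W.1.W j * (1 - S.E (W.1.n j)) * ((1 - S.E (W.1.n j)) * star (W.1.W j))) := by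
        rw [W.1.one_sub_q, mul_assoc _ (1 - S.E (W.1.n j)) (_ * _), ← mul_assoc (1 - _), e,
          mul_assoc]
    _ = M.u W * M.ι ((1 - S.E (W.1.n j)) * (1 - S.E (W.1.n j))) * star (M.u W) := by
        rw [map_mul, ← M.u_E, ← M.E_star_u, map_mul]; noncomm_ring
    _ = _ := by rw [e]

lemma star_u_one_sub_q (W : M.Ψ) (j : ℕ) :
    star (M.u W) * M.ι (1 - W.1.q j) = M.ι ((1 - S.E (W.1.n j)) * star (W.1.W j)) := by
  rw [M.u_conj, ← mul_assoc, ← mul_assoc, (M.u_unit W).1, one_mul, M.E_star_u]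

lemma q_u (W : M.Ψ) (j : ℕ) : M.ι (W.1.q j) * M.u W = M.u W * M.ι (S.E (W.1.n j)) := by
  have := congrArg (· * M.u W) (M.u_conj W j)
  simp only [mul_assoc, (M.u_unit W).1, map_sub, map_one, sub_mul, mul_sub, one_mul,
    mul_one] at this
  exact sub_right_injective this

lemma star_u_q (W : M.Ψ) (j : ℕ) :
    star (M.u W) * M.ι (W.1.q j) = M.ι (S.E (W.1.n j)) * star (M.u W) := by
  have := congrArg star (M.q_u W j)
  rwa [star_mul, star_mul, ← map_star, ← map_star, W.1.star_q, S.star_E] at this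

lemma inv_of_gen (π : A →⋆ₐ[ℂ] (H →L[ℂ] H)) (σ : A →⋆ₐ[ℂ] (H' →L[ℂ] H'))
    (Γ : Submodule ℂ (H × H')) (hΓ : IsClosed (Γ : Set (H × H')))
    (h1 : ∀ b, ∀ z ∈ Γ, pr π σ (M.ι b) z ∈ Γ) (h2 : ∀ W, ∀ z ∈ Γ, pr π σ (M.u W) z ∈ Γ)
    (h3 : ∀ W, ∀ z ∈ Γ, pr π σ (star (M.u W)) z ∈ Γ) (a : A) : ∀ z ∈ Γ, pr π σ a z ∈ Γ := by
  let T : StarSubalgebra ℂ A :=
    { carrier := {a | ∀ z ∈ Γ, pr π σ a z ∈ Γ ∧ pr π σ (star a) z ∈ Γ}
      mul_mem' := fun {a b} ha hb z hz => by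
        rw [star_mul, pr_mul, pr_mul]
        exact ⟨(ha _ (hb z hz).1).1, (hb _ (ha z hz).2).2⟩
      add_mem' := fun {a b} ha hb z hz => by
        rw [star_add, map_add, map_add]
        exact ⟨Γ.add_mem (ha z hz).1 (hb z hz).1, Γ.add_mem (ha z hz).2 (hb z hz).2⟩
      algebraMap_mem' := fun c z hz => by
        rw [Algebra.algebraMap_eq_smul_one, star_smul, star_one, map_smul, map_smul, map_one]
        exact ⟨Γ.smul_mem _ hz, Γ.smul_mem _ hz⟩
      star_mem' := fun {a} ha z hz => by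
        rw [star_star]
        exact (ha z hz).symm }
  have hT : T = ⊤ := by
    refine M.gen T ?_ (fun b z hz => ⟨h1 b z hz, ?_⟩) (fun W z hz => ⟨h2 W z hz, h3 W z hz⟩)
    · have : (T : Set A) = ⋂ z ∈ Γ, ((fun a => pr π σ a z) ⁻¹' Γ ∩
          (fun a => pr π σ (star a) z) ⁻¹' Γ) := by
        ext a
        simp only [Set.mem_iInter]
        rfl
      rw [this]
      exact isClosed_biInter fun z _ => (hΓ.preimage (continuous_pr π σ z)).inter
        (hΓ.preimage ((continuous_pr π σ z).comp continuous_star))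
    · rw [← map_star]
      exact h1 _ z hz
  intro z hz
  have : a ∈ T := hT ▸ StarSubalgebra.mem_top
  exact (this z hz).1

lemma exists_fixed {π : A →⋆ₐ[ℂ] (H →L[ℂ] H)} (hπ : Irr π) [Nontrivial H] :
    ∃ ξ : H, ‖ξ‖ = 1 ∧ ∀ j, π (M.ι (S.E j)) ξ = ξ := by
  by_cases h : ∃ W : M.Ψ, ∃ η : H, η ≠ 0 ∧ ∀ j, π (M.ι (W.1.q j)) η = η
  · obtain ⟨W, η, h0, hη⟩ := h
    have hn : ‖π (star (M.u W)) η‖ = ‖η‖ := norm_rep_unitary π (Unitary.star_mem (M.u_unit W)) η
    refine ⟨(‖η‖⁻¹ : ℂ) • π (star (M.u W)) η, ?_, fun j => ?_⟩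
    · rw [norm_smul, hn, norm_inv]
      simp [h0]
    · rw [map_smul]
      congr 1
      conv_lhs => rw [← hη j, ← rep_mul π (star _), M.star_u_q, ← rep_mul, ← mul_assoc, ← map_mul,
        S.E_mul_E (W.1.le_n j), ← M.star_u_q, rep_mul, hη j]
  exfalso
  push Not at h
  have h0 : ∀ (W : M.Ψ) x, Tendsto (fun j => π (M.ι (W.1.q j)) x) atTop (𝓝 0) := by
    intro W x
    obtain ⟨y, hy, hfix⟩ := exists_limit_fixed (fun j => π (M.ι (W.1.q j)))
      (fun j => by rw [← map_star, ← map_star, W.1.star_q])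
      (fun j k hjk => by rw [← map_mul, ← map_mul, W.1.q_mul_q hjk]) x
    by_cases hy0 : y = 0
    · exact hy0 ▸ hy
    · obtain ⟨j, hj⟩ := h W y hy0
      exact absurd (hfix j) hj
  have hirr : Irr (π.comp M.ι) := by
    intro K hK hinv
    refine hπ K hK fun a x hx => ?_
    have hcl : IsClosed ((K.prod (⊤ : Submodule ℂ H) : Submodule ℂ (H × H)) : Set (H × H)) :=
      hK.prod isClosed_univ
    refine (M.inv_of_gen π π (K.prod ⊤) hcl (fun b z hz => ⟨hinv b _ hz.1, trivial⟩)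
      (fun W z hz => ⟨?_, trivial⟩) (fun W z hz => ⟨?_, trivial⟩) a (x, x) ⟨hx, trivial⟩).1
    · have t1 : Tendsto (fun j => π (M.ι (S.E (W.1.n j))) z.1) atTop (𝓝 0) := by
        have := (h0 ⟨_, M.id_mem⟩ z.1).comp (tendsto_atTop_mono W.1.le_n tendsto_id)
        simpa [Function.comp_def] using this
      have t2 := (tendsto_const_nhds (x := π (M.u W) z.1)).sub
        (((π (M.u W)).continuous.tendsto 0).comp t1)
      rw [map_zero, sub_zero] at t2
      refine hK.mem_of_tendsto t2 (Eventually.of_forall fun j => ?_)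
      have := hinv (W.1.W j * (1 - S.E (W.1.n j))) _ hz.1
      rw [StarAlgHom.comp_apply, ← M.u_E, rep_mul] at this
      simpa using this
    · have t2 := (tendsto_const_nhds (x := π (star (M.u W)) z.1)).sub
        (((π (star (M.u W))).continuous.tendsto 0).comp (h0 W z.1))
      rw [map_zero, sub_zero] at t2
      refine hK.mem_of_tendsto t2 (Eventually.of_forall fun j => ?_)
      have := hinv ((1 - S.E (W.1.n j)) * star (W.1.W j)) _ hz.1
      rw [StarAlgHom.comp_apply, ← M.star_u_one_sub_q, rep_mul] at this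
      simpa using this
  obtain ⟨V, v, hv1, hv⟩ := S.exists_germ hirr
  obtain ⟨W, hW, hl⟩ := M.maxl V
  simp only [Unlinked] at hl
  push Not at hl
  obtain ⟨b, c, hc, hl⟩ := hl
  set ρ := π.comp M.ι with hρ
  have t1 : Tendsto (fun j => ‖ρ (W.q j) (ρ (star b) v)‖ ^ 2) atTop (𝓝 0) := by
    have := ((h0 ⟨W, hW⟩ (ρ (star b) v)).norm).pow 2
    rw [norm_zero, zero_pow two_ne_zero] at this
    exact this
  obtain ⟨j, hj⟩ := (t1.eventually (gt_mem_nhds (show (0 : ℝ) < c ^ 2 / 3 by positivity))).exists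
  obtain ⟨l, hl2⟩ := V.exc' (b * W.q j * star b) (show (0 : ℝ) < c ^ 2 / 3 by positivity)
  obtain ⟨k, hk, hjk⟩ := (hl2.and (eventually_ge_atTop j)).exists
  have e1 : c ^ 2 ≤ ‖V.q k * (b * W.q j * star b) * V.q k‖ := by
    have : V.q k * (b * W.q j * star b) * V.q k =
        (V.q k * b * W.q j) * star (V.q k * b * W.q j) := by
      calc _ = V.q k * (b * (W.q j * W.q j) * star b) * V.q k := by rw [W.q_mul_q le_rfl]
        _ = _ := by simp only [star_mul, Germ.star_q, mul_assoc]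
    rw [this, CStarRing.norm_self_mul_star, sq]
    have h2 : c ≤ ‖V.q k * b * W.q j‖ := by
      refine (hl k).trans ?_
      rw [← W.q_mul_q hjk, ← mul_assoc]
      exact (norm_mul_le _ _).trans (mul_le_of_le_one_right (norm_nonneg _) (W.norm_q_le k))
    exact mul_le_mul h2 h2 hc.le (norm_nonneg _)
  have e2 : ‖V.q k * (b * W.q j * star b) * V.q k‖ ≤
      ‖V.q k * (b * W.q j * star b) * V.q k - l • V.q k‖ + ‖l‖ := by
    refine (norm_le_norm_sub_add _ (l • V.q k)).trans ?_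
    rw [norm_smul]
    have := mul_le_of_le_one_right (norm_nonneg l) (V.norm_q_le k)
    linarith
  have e3 : ⟪v, ρ (V.q k * (b * W.q j * star b) * V.q k - l • V.q k) v⟫_ℂ =
      (‖ρ (W.q j) (ρ (star b) v)‖ ^ 2 : ℝ) - l := by
    rw [map_sub, map_smul, sub_apply, smul_apply, hv, inner_sub_right, inner_smul_right,
      inner_self_eq_norm_sq_to_K, hv1, rep_mul, hv, rep_mul, inner_rep_right, V.star_q, hv,
      ← W.q_mul_q (le_refl j), mul_assoc, mul_assoc, rep_mul, inner_rep_right, rep_mul,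
      inner_rep_right, W.star_q, rep_mul, W.q_mul_q le_rfl, inner_self_eq_norm_sq_to_K]
    simp
  have e4 : ‖((‖ρ (W.q j) (ρ (star b) v)‖ ^ 2 : ℝ) : ℂ) - l‖ ≤
      ‖V.q k * (b * W.q j * star b) * V.q k - l • V.q k‖ := by
    rw [← e3]
    refine (norm_inner_le_norm _ _).trans ?_
    have := norm_rep_le ρ (V.q k * (b * W.q j * star b) * V.q k - l • V.q k) v
    rw [hv1] at this ⊢
    linarith
  have e5 := norm_le_norm_sub_add l ((‖ρ (W.q j) (ρ (star b) v)‖ ^ 2 : ℝ) : ℂ)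
  rw [norm_sub_rev, norm_real, Real.norm_of_nonneg (by positivity)] at e5
  linarith

end Amb

end Vale.Agent.P070
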