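import Vale.Agent.P070.Sys

/-! The inductive step: moving a vector state close to the distinguished one. -/

open scoped InnerProductSpace
open Complex

namespace Vale.Agent.P070

variable {B : Type*} [CStarAlgebra B]
variable {H : Type*} [NormedAddCommGroup H] [InnerProductSpace ℂ H] [CompleteSpace H]

omit [CompleteSpace H] in
lemma exists_frame {ι : Type*} [Fintype ι] (x : ι → H) (P : H →L[ℂ] H) (hP : ∀ i, P (x i) = x i) :
    ∃ m, ∃ F : Fin m → H, Orthonormal ℂ F ∧ (∀ a, P (F a) = F a) ∧
      (∀ i, ∑ a, ⟪F a, x i⟫_ℂ • F a = x i) := by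
  let K := Submodule.span ℂ (Set.range x)
  have : FiniteDimensional ℂ K := FiniteDimensional.span_of_finite ℂ (Set.finite_range x)
  let f := stdOrthonormalBasis ℂ K
  have hK : ∀ v ∈ K, P v = v := fun v hv => by
    induction hv using Submodule.span_induction with
    | mem v hv => obtain ⟨i, rfl⟩ := hv; exact hP i
    | zero => simp
    | add a b _ _ ha hb => rw [map_add, ha, hb]
    | smul c a _ ha => rw [map_smul, ha]
  refine ⟨_, fun a => (f a : H), f.orthonormal.comp_linearIsometry K.subtypeₗᵢ,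
    fun a => hK _ (f a).2, fun i => ?_⟩
  have := congrArg Subtype.val (f.sum_repr' ⟨x i, Submodule.subset_span ⟨i, rfl⟩⟩)
  simpa using this

lemma Sys.step (S : Sys B) {π : B →⋆ₐ[ℂ] (H →L[ℂ] H)} (hπ : Irr π) (j : ℕ) {ξ : H}
    (h1 : ‖ξ‖ = 1) (h2 : π (S.E j) ξ = ξ) (b : B) {ε : ℝ} (hε : 0 < ε) :
    ∃ j', j < j' ∧ ∃ U ∈ unitary B, U * (1 - S.E j) = 1 - S.E j ∧
      (∃ c : ℂ, ‖S.E j' * star U * b * U * S.E j' - c • S.E j'‖ < ε) ∧
      ∃ η : H, ‖η‖ = 1 ∧ π (S.E j') η = η ∧ ‖π U η - ξ‖ < ε := by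
  classical
  have : Nontrivial H := ⟨⟨ξ, 0, fun h => by simp [h] at h1⟩⟩
  obtain ⟨d, c, hc⟩ := S.dense b j ε hε
  let x : Idx d → H := fun i => π (star (S.s j d i)) ξ
  obtain ⟨m, F, hF, hEF, hxF⟩ := exists_frame x (π (S.E (j + d)))
    (fun i => by rw [← rep_mul, S.E_star_s])
  let idx : Fin m → Idx (m + 1) := fun a y => decide (y.val = a.val)
  have hinj : Function.Injective idx := fun a a' h => by
    have := congrFun h a.castSucc
    simp only [idx, Fin.val_castSucc, decide_true] at this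
    exact Fin.ext (of_decide_eq_true this.symm)
  have hz : ∀ a, (fun _ => false) ≠ idx a := fun a h => by
    simpa [idx] using congrFun h a.castSucc
  set k := j + d with hk
  set j' := k + (m + 1) with hj'
  let R : Fin m → B := fun a => S.s k (m + 1) (idx a)
  obtain ⟨η, hη1, hη2, hη3⟩ := S.exists_orth π j'
    (fun p : Fin m × Fin m => π (star (R p.2)) (F p.1))
  let g : Fin m → H := fun a => π (R a) η
  have hg : Orthonormal ℂ g := (S.orthonormal_s π k (m + 1) hη1 hη2).comp idx hinj
  let cf : Idx d → Fin m → ℂ := fun i a => ⟪F a, x i⟫_ℂ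
  let C : ℝ := ∑ i, ∑ a, ‖cf i a‖ * ‖S.s j d i‖
  have hC : 0 ≤ C := by positivity
  obtain ⟨Y, hY, hYE, hYg⟩ := exists_unitary hπ (e := S.E k) (S.star_E k) (S.E_E k) F g hF hg
    (fun a b => by rw [inner_rep_right]; exact hη3 (a, b)) hEF
    (fun a => by rw [← rep_mul, S.E_s]) (ε := ε / (C + 1)) (by positivity)
  let T : Idx d → B := fun i => ∑ a, cf i a • R a
  have hRR : ∀ a a', star (R a) * R a' = if a = a' then S.E j' else 0 := fun a a' => by
    simp only [R, S.star_s_s, hinj.eq_iff]
    rfl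
  have hTT : ∀ i i', star (T i) * T i' = ⟪x i, x i'⟫_ℂ • S.E j' := fun i i' => by
    have e : ⟪x i, x i'⟫_ℂ = ∑ a, star (cf i a) * cf i' a := by
      conv_lhs => rw [← hxF i']
      simp [cf, mul_comm]
    simp only [T, star_sum, star_smul, Finset.sum_mul, Finset.mul_sum, smul_mul_assoc,
      mul_smul_comm, hRR, e, Finset.sum_smul]
    refine Finset.sum_congr rfl fun a _ => ?_
    simp [smul_smul, mul_comm]
  have hET : ∀ i, S.E k * T i = T i := fun i => by
    simp only [T, Finset.mul_sum, mul_smul_comm, R, S.E_s]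
  have hTE : ∀ i, T i * S.E j' = T i := fun i => by
    simp only [T, Finset.sum_mul, smul_mul_assoc, R, hj', S.s_E]
  have hE'T : ∀ i, S.E j' * T i = 0 := fun i => by
    simp only [T, Finset.mul_sum, mul_smul_comm, R, hj', S.Ez_s, if_neg (hz _), smul_zero,
      Finset.sum_const_zero]
  let V0 : B := ∑ i, S.s j d i * T i
  have hsV : ∀ i, star (S.s j d i) * V0 = T i := fun i => by
    simp only [V0, Finset.mul_sum, ← mul_assoc, S.star_s_s]
    simp [← hk, hET]
  have hsum : ∑ i, ⟪x i, x i⟫_ℂ = 1 := by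
    simp only [x, inner_rep_left, star_star, ← rep_mul]
    rw [← inner_sum, ← sum_apply, ← map_sum, S.sum_s, h2,
      inner_self_eq_norm_sq_to_K, h1]
    simp
  have hVV : star V0 * V0 = S.E j' := by
    conv_lhs => rw [show star V0 = ∑ i, star (T i) * star (S.s j d i) by simp [V0, star_sum]]
    simp only [Finset.sum_mul, mul_assoc, hsV, hTT]
    rw [← Finset.sum_smul, hsum, one_smul]
  obtain ⟨U0, hU0, hU1, hU2⟩ := exists_flip (p := S.E j') (V := V0) (e := S.E j) (S.star_E _)
    (S.E_E _) hVV (by simp only [V0, Finset.sum_mul, mul_assoc, hTE])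
    (by
      have e1 := hsV (fun _ => false)
      rw [S.s_z, S.star_E] at e1
      rw [← S.E_mul_E' (show k ≤ j' by omega), mul_assoc, e1, hE'T])
    (S.star_E _) (S.E_mul_E (by omega))
    (by simp only [V0, Finset.mul_sum, ← mul_assoc, S.E_s])
  have hUu : S.amp j d Y * U0 ∈ unitary B := mul_mem (S.amp_unitary j d hYE hY) hU0
  set V : B := ∑ i, S.s j d i * Y * T i with hVdef
  have hUV : S.amp j d Y * U0 * S.E j' = V := by
    rw [mul_assoc, hU1]
    simp only [V0, Finset.mul_sum, ← mul_assoc, S.amp_s j d hYE, hVdef]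
  have hEV : S.E j * V = V := by simp only [hVdef, Finset.mul_sum, ← mul_assoc, S.E_s]
  have hsV' : ∀ i, star (S.s j d i) * V = Y * T i := fun i => by
    simp only [hVdef, Finset.mul_sum, ← mul_assoc, S.star_s_s]
    simp [← hk, ← hYE.eq, mul_assoc, hET]
  have hVn : ‖V‖ ≤ 1 := by
    rw [← hUV, CStarRing.norm_mem_unitary_mul _ hUu]
    exact S.norm_E_le _
  refine ⟨j', by omega, _, hUu, by rw [mul_assoc, hU2, S.amp_E],
    ⟨∑ i, ∑ i', c i i' * ⟪x i, x i'⟫_ℂ, lt_of_le_of_lt ?_ hc⟩, η, hη1, hη2, ?_⟩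
  · have e1 : S.E j' * star (S.amp j d Y * U0) * b * (S.amp j d Y * U0) * S.E j' =
        star V * (S.E j * b * S.E j) * V := by
      have e2 : star V * S.E j = star V := by
        have := congrArg star hEV
        rwa [star_mul, S.star_E] at this
      calc _ = star (S.amp j d Y * U0 * S.E j') * b * (S.amp j d Y * U0 * S.E j') := by
            rw [star_mul _ (S.E j'), S.star_E]; noncomm_ring
        _ = (star V * S.E j) * b * (S.E j * V) := by rw [hUV, e2, hEV]
        _ = _ := by noncomm_ring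
    have e3 : (∑ i, ∑ i', c i i' * ⟪x i, x i'⟫_ℂ) • S.E j' =
        star V * (∑ i, ∑ i', c i i' • (S.s j d i * star (S.s j d i'))) * V := by
      simp only [Finset.sum_smul, Finset.mul_sum, Finset.sum_mul, mul_smul_comm, smul_mul_assoc]
      refine Finset.sum_congr rfl fun i _ => Finset.sum_congr rfl fun i' _ => ?_
      have : star V * (S.s j d i * star (S.s j d i')) * V =
          star (star (S.s j d i) * V) * (star (S.s j d i') * V) := by
        rw [star_mul, star_star]; noncomm_ring
      rw [this, hsV', hsV', star_mul, mul_assoc, ← mul_assoc (star Y), hY.1, one_mul, hTT,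
        smul_smul]
    rw [e1, e3, ← sub_mul, ← mul_sub]
    refine norm_mul₃_le.trans ?_
    rw [norm_star]
    have h0 := norm_nonneg V
    calc _ ≤ 1 * ‖S.E j * b * S.E j - ∑ i, ∑ i', c i i' • (S.s j d i * star (S.s j d i'))‖ * 1 := by
          gcongr
      _ = _ := by ring
  · have e1 : π (S.amp j d Y * U0) η = ∑ i, ∑ a, cf i a • π (S.s j d i) (π Y (g a)) := by
      conv_lhs => rw [← hη2, ← rep_mul, hUV]
      simp [hVdef, T, g]
    have e2 : ξ = ∑ i, ∑ a, cf i a • π (S.s j d i) (F a) := by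
      conv_lhs => rw [← h2, ← S.sum_s j d, map_sum, sum_apply]
      refine Finset.sum_congr rfl fun i _ => ?_
      rw [rep_mul]
      change π (S.s j d i) (x i) = _
      conv_lhs => rw [← hxF i]
      simp [cf]
    rw [e1]
    conv_lhs => rw [e2]
    rw [← Finset.sum_sub_distrib]
    calc _ ≤ ∑ i, ∑ a, ‖cf i a‖ * ‖S.s j d i‖ * (ε / (C + 1)) := by
          refine norm_sum_le_of_le _ fun i _ => ?_
          rw [← Finset.sum_sub_distrib]
          refine norm_sum_le_of_le _ fun a _ => ?_
          rw [← smul_sub, ← map_sub, norm_smul, mul_assoc]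
          gcongr
          exact (norm_rep_le π _ _).trans (by gcongr; exact (hYg a).le)
      _ = C * (ε / (C + 1)) := by simp only [C, Finset.sum_mul]
      _ < ε := by
          rw [← mul_div_assoc, div_lt_iff₀ (by positivity)]
          nlinarith

end Vale.Agent.P070
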