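import Vale.Agent.P070.Dens

/-! Systems of matrix units generating a uniformly hyperfinite algebra. -/

open scoped InnerProductSpace
open Complex

namespace Vale.Agent.P070

/-- Binary words of length `d`. -/
abbrev Idx (d : ℕ) := Fin d → Bool

/-- A decreasing sequence of projections together with matrix units between them. -/
structure Sys (B : Type*) [CStarAlgebra B] where
  E : ℕ → B
  s : (j d : ℕ) → Idx d → B
  E_zero : E 0 = 1
  star_s_s : ∀ j d i i', star (s j d i) * s j d i' = if i = i' then E (j + d) else 0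
  sum_s : ∀ j d, ∑ i, s j d i * star (s j d i) = E j
  s_z : ∀ j d, s j d (fun _ => false) = E (j + d)
  dense : ∀ b j (ε : ℝ), 0 < ε → ∃ d, ∃ c : Idx d → Idx d → ℂ,
    ‖E j * b * E j - ∑ i, ∑ i', c i i' • (s j d i * star (s j d i'))‖ < ε

variable {B : Type*} [CStarAlgebra B]
variable {H : Type*} [NormedAddCommGroup H] [InnerProductSpace ℂ H] [CompleteSpace H]

lemma exists_flip {p V e : B} (hp : star p = p) (hpp : p * p = p) (hV : star V * V = p)
    (hVp : V * p = V) (hpV : p * V = 0) (he : star e = e) (hep : e * p = p) (heV : e * V = V) :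
    ∃ U ∈ unitary B, U * p = V ∧ U * (1 - e) = 1 - e := by
  have h1 : star V * p = 0 := by rw [← hp, ← star_mul, hpV, star_zero]
  have h2 : star (p - V) * (p - V) = p + p := by
    rw [star_sub, hp, sub_mul, mul_sub, mul_sub, hpp, hpV, h1, hV]; abel
  have h3 : (p - V) * p = p - V := by rw [sub_mul, hpp, hVp]
  have h4 : star (1 - (p - V) * star (p - V)) = 1 - (p - V) * star (p - V) := by
    rw [star_sub, star_one, star_mul, star_star]
  have h5 : (1 - (p - V) * star (p - V)) * (1 - (p - V) * star (p - V)) = 1 := by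
    calc _ = 1 - (p - V) * star (p - V) - (p - V) * star (p - V) +
          (p - V) * (star (p - V) * (p - V)) * star (p - V) := by noncomm_ring
      _ = 1 := by rw [h2, mul_add, h3, add_mul]; abel
  refine ⟨1 - (p - V) * star (p - V), ⟨by rw [h4, h5], by rw [h4, h5]⟩, ?_, ?_⟩
  · have : star (p - V) * p = p := by rw [star_sub, hp, sub_mul, hpp, h1, sub_zero]
    rw [sub_mul 1, one_mul, mul_assoc, this, h3]; abel
  · have : star (p - V) * (1 - e) = 0 := by
      have : (1 - e) * (p - V) = 0 := by rw [sub_mul, one_mul, mul_sub, hep, heV, sub_self]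
      have := congrArg star this
      rwa [star_mul, star_sub 1, star_one, he, star_zero] at this
    rw [sub_mul 1, one_mul, mul_assoc, this, mul_zero, sub_zero]

namespace Sys

variable (S : Sys B)

lemma star_E_mul (k : ℕ) : star (S.E k) * S.E k = S.E k := by
  have := S.star_s_s 0 k (fun _ => false) (fun _ => false)
  rwa [S.s_z, if_pos rfl, zero_add] at this

@[simp] lemma star_E (k : ℕ) : star (S.E k) = S.E k := by
  conv_lhs => rw [← S.star_E_mul k]
  rw [star_mul, star_star, S.star_E_mul]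

@[simp] lemma E_E (k : ℕ) : S.E k * S.E k = S.E k := by
  have := S.star_E_mul k
  rwa [S.star_E] at this

lemma s_E (j d : ℕ) (i : Idx d) : S.s j d i * S.E (j + d) = S.s j d i := by
  have h : star (S.s j d i) * S.s j d i = S.E (j + d) := by rw [S.star_s_s, if_pos rfl]
  have : star (S.s j d i * S.E (j + d) - S.s j d i) * (S.s j d i * S.E (j + d) - S.s j d i) = 0 := by
    calc _ = S.E (j + d) * (star (S.s j d i) * S.s j d i) * S.E (j + d) -
          S.E (j + d) * (star (S.s j d i) * S.s j d i) -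
          (star (S.s j d i) * S.s j d i) * S.E (j + d) + star (S.s j d i) * S.s j d i := by
          rw [star_sub, star_mul, S.star_E]; noncomm_ring
      _ = 0 := by rw [h]; simp
  exact sub_eq_zero.1 ((CStarRing.star_mul_self_eq_zero_iff _).1 this)

lemma E_s (j d : ℕ) (i : Idx d) : S.E j * S.s j d i = S.s j d i := by
  rw [← S.sum_s j d, Finset.sum_mul]
  simp [mul_assoc, S.star_s_s, S.s_E]

lemma star_s_E (j d : ℕ) (i : Idx d) : star (S.s j d i) * S.E j = star (S.s j d i) := by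
  have := congrArg star (S.E_s j d i)
  rwa [star_mul, S.star_E] at this

lemma E_star_s (j d : ℕ) (i : Idx d) : S.E (j + d) * star (S.s j d i) = star (S.s j d i) := by
  have := congrArg star (S.s_E j d i)
  rwa [star_mul, S.star_E] at this

lemma E_mul_E {j k : ℕ} (h : j ≤ k) : S.E j * S.E k = S.E k := by
  obtain ⟨d, rfl⟩ := Nat.exists_eq_add_of_le h
  have := S.E_s j d (fun _ => false)
  rwa [S.s_z] at this

lemma E_mul_E' {j k : ℕ} (h : j ≤ k) : S.E k * S.E j = S.E k := by
  have := congrArg star (S.E_mul_E h)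
  rwa [star_mul, S.star_E, S.star_E] at this

lemma Ez_s (j d : ℕ) (i : Idx d) :
    S.E (j + d) * S.s j d i = if (fun _ => false) = i then S.E (j + d) else 0 := by
  rw [← S.star_s_s, S.s_z, S.star_E]

lemma norm_E_le (k : ℕ) : ‖S.E k‖ ≤ 1 :=
  IsStarProjection.norm_le _ ⟨S.E_E k, S.star_E k⟩

lemma map_E_ne_zero {D : Type*} [Ring D] [Nontrivial D] (φ : B →+* D) (k : ℕ) :
    φ (S.E k) ≠ 0 := by
  intro h
  have : (1 : B) = ∑ i, S.s 0 k i * S.E k * star (S.s 0 k i) := by
    rw [← S.E_zero, ← S.sum_s 0 k]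
    refine Finset.sum_congr rfl fun i _ => ?_
    have := S.s_E 0 k i
    rw [zero_add] at this
    rw [this]
  have := congrArg φ this
  simp [h] at this

lemma map_E_sub_ne_zero {D : Type*} [Ring D] [Nontrivial D] (φ : B →+* D) (k : ℕ) :
    φ (S.E k - S.E (k + 1)) ≠ 0 := by
  intro h
  apply S.map_E_ne_zero φ (k + 1)
  have : S.E (k + 1) = star (S.s k 1 fun _ => true) * ((S.E k - S.E (k + 1)) *
      S.s k 1 fun _ => true) := by
    rw [sub_mul, S.E_s, S.Ez_s, if_neg (fun h => by simpa using congrFun h 0), sub_zero,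
      S.star_s_s, if_pos rfl]
  rw [this, map_mul, map_mul, h]
  simp

/-- The identity sequence excises a state. -/
lemma exc_E (b : B) {ε : ℝ} (hε : 0 < ε) :
    ∃ j, ∃ c : ℂ, ‖S.E j * b * S.E j - c • S.E j‖ < ε := by
  obtain ⟨d, c, hc⟩ := S.dense b 0 ε hε
  refine ⟨0 + d, c (fun _ => false) (fun _ => false), lt_of_le_of_lt ?_ hc⟩
  have h1 : ∀ i, star (S.s 0 d i) * S.E (0 + d) =
      if (fun _ => false) = i then S.E (0 + d) else 0 := fun i => by
    have := congrArg star (S.Ez_s 0 d i)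
    rw [star_mul, S.star_E] at this
    rw [this]
    split_ifs <;> simp
  have : S.E (0 + d) * b * S.E (0 + d) - c (fun _ => false) (fun _ => false) • S.E (0 + d) =
      S.E (0 + d) * (S.E 0 * b * S.E 0 - ∑ i, ∑ i', c i i' • (S.s 0 d i * star (S.s 0 d i'))) *
        S.E (0 + d) := by
    rw [S.E_zero, one_mul, mul_one, mul_sub, sub_mul]
    congr 1
    simp only [Finset.mul_sum, Finset.sum_mul, mul_smul_comm, smul_mul_assoc]
    have : ∀ i i', S.E (0 + d) * (S.s 0 d i * star (S.s 0 d i')) * S.E (0 + d) =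
        (S.E (0 + d) * S.s 0 d i) * (star (S.s 0 d i') * S.E (0 + d)) := fun _ _ => by
      noncomm_ring
    simp only [this, S.Ez_s, h1]
    simp
  rw [this]
  refine (norm_mul₃_le).trans ?_
  have := S.norm_E_le (0 + d)
  have h0 := norm_nonneg (S.E (0 + d))
  have h2 := norm_nonneg (S.E 0 * b * S.E 0 - ∑ i, ∑ i', c i i' • (S.s 0 d i * star (S.s 0 d i')))
  calc _ ≤ 1 * ‖S.E 0 * b * S.E 0 - ∑ i, ∑ i', c i i' • (S.s 0 d i * star (S.s 0 d i'))‖ * 1 := by
        gcongr
    _ = _ := by ring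

include S in
lemma separable : TopologicalSpace.SeparableSpace B := by
  rw [← TopologicalSpace.isSeparable_univ_iff]
  have h : TopologicalSpace.IsSeparable (⋃ d, Set.range fun c : Idx d → Idx d → ℂ =>
      ∑ i, ∑ i', c i i' • (S.s 0 d i * star (S.s 0 d i'))) :=
    .iUnion fun d => TopologicalSpace.isSeparable_range (by fun_prop)
  refine h.closure.mono fun b _ => Metric.mem_closure_iff.2 fun ε hε => ?_
  obtain ⟨d, c, hc⟩ := S.dense b 0 ε hε
  refine ⟨_, Set.mem_iUnion.2 ⟨d, c, rfl⟩, ?_⟩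
  rwa [S.E_zero, one_mul, mul_one, ← dist_eq_norm] at hc

/-- Amplification of an element along the matrix units. -/
noncomputable def amp (j d : ℕ) (Y : B) : B := ∑ i, S.s j d i * Y * star (S.s j d i) + (1 - S.E j)

lemma star_amp (j d : ℕ) (Y : B) : star (S.amp j d Y) = S.amp j d (star Y) := by
  simp [amp, star_sum, mul_assoc]

lemma amp_s (j d : ℕ) {Y : B} (hY : Commute Y (S.E (j + d))) (i : Idx d) :
    S.amp j d Y * S.s j d i = S.s j d i * Y := by
  simp only [amp, add_mul, Finset.sum_mul, mul_assoc, S.star_s_s, sub_mul, one_mul, S.E_s]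
  simp [hY.eq, ← mul_assoc, S.s_E]

lemma amp_E (j d : ℕ) (Y : B) : S.amp j d Y * (1 - S.E j) = 1 - S.E j := by
  simp [amp, add_mul, Finset.sum_mul, mul_assoc, mul_sub, S.star_s_E, sub_mul]

lemma amp_mul (j d : ℕ) {Y : B} (hY : Commute Y (S.E (j + d))) (Z : B) :
    S.amp j d Y * S.amp j d Z = S.amp j d (Y * Z) := by
  conv_lhs => rw [amp.eq_1 S j d Z]
  rw [mul_add, S.amp_E, Finset.mul_sum, amp.eq_1 S j d (Y * Z)]
  congr 1
  refine Finset.sum_congr rfl fun i _ => ?_
  rw [← mul_assoc, ← mul_assoc, S.amp_s j d hY]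
  noncomm_ring

lemma amp_one (j d : ℕ) : S.amp j d 1 = 1 := by
  simp [amp, S.sum_s]

lemma amp_unitary (j d : ℕ) {Y : B} (hY : Commute Y (S.E (j + d))) (hu : Y ∈ unitary B) :
    S.amp j d Y ∈ unitary B := by
  have hY' : Commute (star Y) (S.E (j + d)) := by
    have := hY.star_star
    rwa [S.star_E] at this
  exact ⟨by rw [S.star_amp, S.amp_mul j d hY', hu.1, S.amp_one],
    by rw [S.star_amp, S.amp_mul j d hY, hu.2, S.amp_one]⟩

lemma exists_unit (π : B →⋆ₐ[ℂ] (H →L[ℂ] H)) [Nontrivial H] (k : ℕ) :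
    ∃ ζ : H, ‖ζ‖ = 1 ∧ π (S.E k) ζ = ζ := by
  have := S.map_E_ne_zero (π : B →+* (H →L[ℂ] H)) k
  obtain ⟨x, hx⟩ : ∃ x, π (S.E k) x ≠ 0 := by
    by_contra! h
    exact this (ContinuousLinearMap.ext h)
  refine ⟨(‖π (S.E k) x‖⁻¹ : ℂ) • π (S.E k) x, ?_, ?_⟩
  · rw [norm_smul, norm_inv]
    simp [hx]
  · rw [map_smul, ← rep_mul, S.E_E]

lemma orthonormal_s (π : B →⋆ₐ[ℂ] (H →L[ℂ] H)) (j d : ℕ) {ζ : H} (h1 : ‖ζ‖ = 1)
    (h2 : π (S.E (j + d)) ζ = ζ) : Orthonormal ℂ fun i => π (S.s j d i) ζ := by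
  rw [orthonormal_iff_ite]
  intro i i'
  rw [inner_rep_left, ← rep_mul, S.star_s_s]
  split_ifs
  · rw [h2, inner_self_eq_norm_sq_to_K, h1]; simp
  · simp

lemma exists_orth (π : B →⋆ₐ[ℂ] (H →L[ℂ] H)) [Nontrivial H] (k : ℕ) {κ : Type*} [Fintype κ]
    (v : κ → H) : ∃ η : H, ‖η‖ = 1 ∧ π (S.E k) η = η ∧ ∀ a, ⟪v a, η⟫_ℂ = 0 := by
  classical
  set d := Fintype.card κ with hd
  obtain ⟨ζ, h1, h2⟩ := S.exists_unit π (k + d)
  have ho := S.orthonormal_s π k d h1 h2
  let L : (Idx d → ℂ) →ₗ[ℂ] H := Fintype.linearCombination ℂ fun i => π (S.s k d i) ζ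
  let M : (Idx d → ℂ) →ₗ[ℂ] (κ → ℂ) := LinearMap.pi fun a => (innerₛₗ ℂ (v a)) ∘ₗ L
  have hk : LinearMap.ker M ≠ ⊥ := LinearMap.ker_ne_bot_of_finrank_lt (by
    simp only [Module.finrank_fintype_fun_eq_card, Fintype.card_pi, Fintype.card_bool,
      Finset.prod_const, Finset.card_univ, Fintype.card_fin]
    exact Nat.lt_two_pow_self)
  obtain ⟨c, hc, hc0⟩ := Submodule.exists_mem_ne_zero_of_ne_bot hk
  have hL : L c ≠ 0 := fun h => hc0 (by
    have := ho.linearIndependent
    rw [Fintype.linearIndependent_iff] at this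
    funext i
    exact this c (by simpa [L, Fintype.linearCombination_apply] using h) i)
  refine ⟨(‖L c‖⁻¹ : ℂ) • L c, ?_, ?_, fun a => ?_⟩
  · rw [norm_smul, norm_inv]
    simp [hL]
  · rw [map_smul]
    congr 1
    simp only [L, Fintype.linearCombination_apply, map_sum, map_smul, ← rep_mul, S.E_s]
  · have : ⟪v a, L c⟫_ℂ = 0 := congrFun hc a
    rw [inner_smul_right, this, mul_zero]

end Sys

end Vale.Agent.P070
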