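import Vale.Agent.P070.Main

/-! Uniqueness of the irreducible representation. -/

open scoped InnerProductSpace Topology
open Complex Filter

namespace Vale.Agent.P070

variable {B : Type*} [CStarAlgebra B] {A : Type*} [CStarAlgebra A]
variable {H : Type*} [NormedAddCommGroup H] [InnerProductSpace ℂ H] [CompleteSpace H]
variable {H' : Type*} [NormedAddCommGroup H'] [InnerProductSpace ℂ H'] [CompleteSpace H']

/-- A closed invariant isometric graph yields a unitary equivalence. -/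
lemma equiv_of_graph {π : A →⋆ₐ[ℂ] (H →L[ℂ] H)} {σ : A →⋆ₐ[ℂ] (H' →L[ℂ] H')} (hπ : Irr π)
    (hσ : Irr σ) (Γ : Submodule ℂ (H × H')) (hΓ : IsClosed (Γ : Set (H × H')))
    (hinv : ∀ a, ∀ z ∈ Γ, pr π σ a z ∈ Γ) (hn : ∀ z ∈ Γ, ‖z.1‖ = ‖z.2‖)
    (h0 : ∃ z ∈ Γ, z.1 ≠ 0) :
    ∃ U : H ≃ₗᵢ[ℂ] H', ∀ a x, U (π a x) = σ a (U x) := by
  have : CompleteSpace Γ := hΓ.completeSpace_coe
  obtain ⟨z0, hz0, hz1⟩ := h0
  let e1 : Γ →ₗᵢ[ℂ] H := ⟨LinearMap.fst ℂ H H' ∘ₗ Γ.subtype, fun z => by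
    change ‖z.1.1‖ = ‖z.1‖
    rw [Prod.norm_def, ← hn _ z.2, max_self]⟩
  let e2 : Γ →ₗᵢ[ℂ] H' := ⟨LinearMap.snd ℂ H H' ∘ₗ Γ.subtype, fun z => by
    change ‖z.1.2‖ = ‖z.1‖
    rw [Prod.norm_def, hn _ z.2, max_self]⟩
  have s1 : Function.Surjective e1 := by
    rcases hπ (LinearMap.range e1.toLinearMap) e1.isometry.isClosedEmbedding.isClosed_range (by
      rintro a _ ⟨z, rfl⟩
      exact ⟨⟨_, hinv a _ z.2⟩, rfl⟩) with h | h
    · have : z0.1 ∈ LinearMap.range e1.toLinearMap := ⟨⟨z0, hz0⟩, rfl⟩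
      rw [h] at this
      exact absurd this hz1
    · exact LinearMap.range_eq_top.1 h
  have s2 : Function.Surjective e2 := by
    rcases hσ (LinearMap.range e2.toLinearMap) e2.isometry.isClosedEmbedding.isClosed_range (by
      rintro a _ ⟨z, rfl⟩
      exact ⟨⟨_, hinv a _ z.2⟩, rfl⟩) with h | h
    · have : z0.2 ∈ LinearMap.range e2.toLinearMap := ⟨⟨z0, hz0⟩, rfl⟩
      rw [h, Submodule.mem_bot, ← norm_eq_zero, ← hn _ hz0, norm_eq_zero] at this
      exact absurd this hz1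
    · exact LinearMap.range_eq_top.1 h
  refine ⟨(LinearIsometryEquiv.ofSurjective e1 s1).symm.trans
    (LinearIsometryEquiv.ofSurjective e2 s2), fun a x => ?_⟩
  obtain ⟨z, rfl⟩ := s1 x
  have k : ∀ w : Γ, ((LinearIsometryEquiv.ofSurjective e1 s1).symm.trans
      (LinearIsometryEquiv.ofSurjective e2 s2)) (e1 w) = e2 w := fun w => by
    rw [LinearIsometryEquiv.trans_apply]
    have : (LinearIsometryEquiv.ofSurjective e1 s1).symm (e1 w) = w :=
      (LinearIsometryEquiv.ofSurjective e1 s1).symm_apply_apply w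
    rw [this]
    rfl
  have e : π a (e1 z) = e1 ⟨_, hinv a _ z.2⟩ := rfl
  rw [e, k, k]
  rfl

namespace Amb

variable {S : Sys B} (M : Amb S A)

include M in
lemma unique {π : A →⋆ₐ[ℂ] (H →L[ℂ] H)} {σ : A →⋆ₐ[ℂ] (H' →L[ℂ] H')} (hπ : Irr π)
    (hσ : Irr σ) [Nontrivial H] [Nontrivial H'] :
    ∃ U : H ≃ₗᵢ[ℂ] H', ∀ a x, U (π a x) = σ a (U x) := by
  obtain ⟨ξ, hξ1, hξ⟩ := M.exists_fixed hπ
  obtain ⟨ξ', hξ1', hξ'⟩ := M.exists_fixed hσ
  let z : M.Ψ → H × H' := fun W => pr π σ (M.u W) (ξ, ξ')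
  have hE : ∀ j, pr π σ (M.ι (S.E j)) (ξ, ξ') = (ξ, ξ') := fun j => Prod.ext (hξ j) (hξ' j)
  have hzq : ∀ W j, pr π σ (M.ι (W.1.q j)) (z W) = z W := fun W j => by
    simp only [z]
    rw [← pr_mul, M.q_u, pr_mul, hE]
  have hz1 : ∀ W, ‖(z W).1‖ = 1 := fun W => by
    simp only [z, pr_fst]
    rw [norm_rep_unitary π (M.u_unit W), hξ1]
  have hz2 : ∀ W, ‖(z W).2‖ = 1 := fun W => by
    simp only [z, pr_snd]
    rw [norm_rep_unitary σ (M.u_unit W), hξ1']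
  have hzn : ∀ W, ‖z W‖ = 1 := fun W => by rw [Prod.norm_def, hz1, hz2, max_self]
  have hzid : z ⟨_, M.id_mem⟩ = (ξ, ξ') := by
    simp only [z]
    rw [M.u_id, map_one]
    rfl
  have hι : ∀ b, ‖M.ι b‖ ≤ ‖b‖ := fun b => NonUnitalStarAlgHom.norm_apply_le M.ι b
  have key : ∀ (V W : M.Ψ) b (ε : ℝ), 0 < ε → ∃ c : ℂ, ∀ᶠ k in atTop,
      ‖pr π σ (M.ι (V.1.q k * b)) (z W) - c • z V‖ < ε := by
    intro V W b ε hε
    by_cases hVW : V = W
    · subst hVW
      obtain ⟨c, hc⟩ := V.1.exc' b hε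
      refine ⟨c, hc.mono fun k hk => lt_of_le_of_lt ?_ hk⟩
      have : pr π σ (M.ι (V.1.q k * b)) (z V) - c • z V =
          pr π σ (M.ι (V.1.q k * b * V.1.q k - c • V.1.q k)) (z V) := by
        rw [map_sub, map_sub, map_smul, map_smul, sub_apply, smul_apply, hzq, map_mul _ _ (V.1.q k),
          pr_mul, hzq]
      rw [this]
      refine (norm_pr_le π σ _ _).trans ?_
      rw [hzn, mul_one]
      exact hι _
    · refine ⟨0, ((M.pair V.2 W.2 fun h => hVW (Subtype.ext h)).eventually b hε).mono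
        fun k hk => lt_of_le_of_lt ?_ hk⟩
      rw [zero_smul, sub_zero, ← hzq W k, ← pr_mul, ← map_mul]
      refine (norm_pr_le π σ _ _).trans ?_
      rw [hzn, mul_one]
      exact hι _
  let G : Set (H × H') := {w | ∃ b W, w = pr π σ (M.ι b) (z W)}
  let Γ := (Submodule.span ℂ G).topologicalClosure
  have hΓ : IsClosed (Γ : Set (H × H')) := Submodule.isClosed_topologicalClosure _
  have hG : ∀ b W, pr π σ (M.ι b) (z W) ∈ Γ := fun b W =>
    Submodule.le_topologicalClosure _ (Submodule.subset_span ⟨b, W, rfl⟩)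
  have hzG : ∀ W, z W ∈ Γ := fun W => by simpa using hG 1 W
  have hmin : ∀ K : Submodule ℂ (H × H'), IsClosed (K : Set (H × H')) →
      (∀ b W, pr π σ (M.ι b) (z W) ∈ K) → Γ ≤ K := fun K hK h =>
    Submodule.topologicalClosure_minimal _ (Submodule.span_le.2 (by
      rintro _ ⟨b, W, rfl⟩
      exact h b W)) hK
  have hinv0 : ∀ a, (∀ b W, pr π σ a (pr π σ (M.ι b) (z W)) ∈ Γ) → ∀ w ∈ Γ, pr π σ a w ∈ Γ :=
    fun a h => hmin (Γ.comap (pr π σ a).toLinearMap) (hΓ.preimage (pr π σ a).continuous) h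
  have happ : ∀ w : H × H', (∀ ε : ℝ, 0 < ε → ∃ w' ∈ Γ, ‖w - w'‖ < ε) → w ∈ Γ := fun w h => by
    refine hΓ.closure_subset (Metric.mem_closure_iff.2 fun ε hε => ?_)
    obtain ⟨w', h1, h2⟩ := h ε hε
    exact ⟨w', h1, by rwa [dist_eq_norm]⟩
  have hun : ∀ a ∈ unitary A, ∀ w, ‖pr π σ a w‖ = ‖w‖ := fun a ha w => by
    rw [Prod.norm_def, Prod.norm_def, pr_fst, pr_snd, norm_rep_unitary π ha, norm_rep_unitary σ ha]
  have hinv := M.inv_of_gen π σ Γ hΓ
    (fun b => hinv0 _ fun b' W => by rw [← pr_mul, ← map_mul]; exact hG _ _)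
    (fun V => hinv0 _ fun b W => happ _ fun ε hε => by
      obtain ⟨c, hc⟩ := key ⟨_, M.id_mem⟩ W b ε hε
      obtain ⟨j, hj⟩ := ((tendsto_atTop_mono V.1.le_n tendsto_id).eventually hc).exists
      refine ⟨pr π σ (M.ι (V.1.W j * (1 - S.E (V.1.n j)) * b)) (z W) + c • z V,
        Γ.add_mem (hG _ _) (Γ.smul_mem _ (hzG _)), lt_of_eq_of_lt ?_ hj⟩
      rw [← hun _ (M.u_unit V) (_ - c • z ⟨_, M.id_mem⟩), hzid, map_mul, ← M.u_E]
      congr 1
      simp only [Sys.idGerm_q, map_sub, map_one, map_mul, mul_sub, sub_mul, mul_one, sub_apply,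
        mul_apply_eq_comp, map_smul, z]
      abel)
    (fun V => hinv0 _ fun b W => happ _ fun ε hε => by
      obtain ⟨c, hc⟩ := key V W b ε hε
      obtain ⟨j, hj⟩ := hc.exists
      refine ⟨pr π σ (M.ι ((1 - S.E (V.1.n j)) * star (V.1.W j) * b)) (z W) +
        c • z ⟨_, M.id_mem⟩, Γ.add_mem (hG _ _) (Γ.smul_mem _ (hzG _)), lt_of_eq_of_lt ?_ hj⟩
      have e : pr π σ (star (M.u V)) (z V) = (ξ, ξ') := by
        simp only [z]
        rw [← pr_mul, (M.u_unit V).1, map_one]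
        rfl
      rw [← hun _ (Unitary.star_mem (M.u_unit V)) (_ - c • z V), hzid, map_mul,
        ← M.star_u_one_sub_q]
      congr 1
      simp only [map_sub, map_one, map_mul, mul_sub, sub_mul, mul_one, sub_apply,
        mul_apply_eq_comp, map_smul, e]
      abel)
  let L : H × H' → (H × H' →L[ℂ] ℂ) := fun w =>
    innerSL ℂ w.1 ∘L ContinuousLinearMap.fst ℂ H H' - innerSL ℂ w.2 ∘L ContinuousLinearMap.snd ℂ H H'
  have hL : ∀ w w', L w w' = ⟪w.1, w'.1⟫_ℂ - ⟪w.2, w'.2⟫_ℂ := fun _ _ => rfl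
  have hLs : ∀ w w', L w w' = 0 → L w' w = 0 := fun w w' h => by
    rw [hL, ← inner_conj_symm w'.1, ← inner_conj_symm w'.2, ← map_sub, ← hL, h, map_zero]
  have hL1 : ∀ b V b' W, L (pr π σ (M.ι b) (z V)) (pr π σ (M.ι b') (z W)) = 0 := by
    intro b V b' W
    refine norm_le_zero_iff.1 (le_of_forall_pos_le_add fun ε hε => ?_)
    obtain ⟨c, hc⟩ := key V W (star b * b') (ε / 2) (half_pos hε)
    obtain ⟨k, hk⟩ := hc.exists
    set w := pr π σ (M.ι (V.1.q k * (star b * b'))) (z W) - c • z V with hw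
    have e : L (pr π σ (M.ι b) (z V)) (pr π σ (M.ι b') (z W)) = L (z V) w := by
      have a1 := congrArg Prod.fst (hzq V k)
      have a2 := congrArg Prod.snd (hzq V k)
      rw [pr_fst] at a1
      rw [pr_snd] at a2
      simp only [hL, hw, Prod.fst_sub, Prod.snd_sub, Prod.smul_fst, Prod.smul_snd, pr_fst, pr_snd,
        inner_sub_right, inner_smul_right, inner_self_eq_norm_sq_to_K, hz1, hz2, map_mul,
        mul_apply_eq_comp]
      rw [inner_rep_right π (M.ι (V.1.q k)), inner_rep_right σ (M.ι (V.1.q k)), ← map_star,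
        V.1.star_q, a1, a2, inner_rep_left π (M.ι b), inner_rep_left σ (M.ι b), ← map_star]
      ring
    rw [e, hL, zero_add]
    have b1 := norm_inner_le_norm (𝕜 := ℂ) (z V).1 w.1
    have b2 := norm_inner_le_norm (𝕜 := ℂ) (z V).2 w.2
    rw [hz1] at b1
    rw [hz2] at b2
    have := norm_sub_le ⟪(z V).1, w.1⟫_ℂ ⟪(z V).2, w.2⟫_ℂ
    linarith [norm_fst_le w, norm_snd_le w]
  have hL2 : ∀ w ∈ Γ, L w w = 0 := fun w hw =>
    hmin (L w).ker (L w).isClosed_ker (fun b V => hLs _ _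
      (hmin (L _).ker (L _).isClosed_ker (hL1 b V) hw)) hw
  refine equiv_of_graph hπ hσ Γ hΓ hinv (fun w hw => ?_) ⟨_, hzG ⟨_, M.id_mem⟩, fun h => ?_⟩
  · have := hL2 w hw
    rw [hL, sub_eq_zero, inner_self_eq_norm_sq_to_K, inner_self_eq_norm_sq_to_K] at this
    have h2 : ‖w.1‖ ^ 2 = ‖w.2‖ ^ 2 := by exact_mod_cast this
    exact (pow_left_inj₀ (norm_nonneg _) (norm_nonneg _) two_ne_zero).1 h2
  · have := hz1 ⟨_, M.id_mem⟩
    rw [h, norm_zero] at this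
    exact zero_ne_one this

end Amb

end Vale.Agent.P070
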